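import Mathlib.CategoryTheory.Category.Basic
import Vale.Agent.P323.Z.Fml

/-!
Forcing over a category: abstract interface.

`Atomic C`: a strictly functorial family of names with forced equality and forced membership,
both monotone and local.  `Forces`: forcing of first-order formulas of the language of set
theory (`Vale.Agent.P323.Z.Fml`), with the basic laws.
-/

namespace Vale.Agent.P323.F

open CategoryTheory Vale.Agent.P323.Z

universe u v w

/-- A presheaf of names with forced equality and forced membership. -/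
structure Atomic (C : Type u) [Category.{v} C] where
  /-- the names at an object -/
  N : C → Type w
  /-- names move along extensions -/
  mv : ∀ {X Y : C}, (X ⟶ Y) → N X → N Y
  mv_id : ∀ {X : C} (a : N X), mv (𝟙 X) a = a
  mv_comp : ∀ {X Y Z : C} (f : X ⟶ Y) (g : Y ⟶ Z) (a : N X), mv (f ≫ g) a = mv g (mv f a)
  ne : ∀ X : C, Nonempty (N X)
  /-- forced equality -/
  feq : ∀ {X : C}, N X → N X → Prop
  /-- forced membership -/
  fmem : ∀ {X : C}, N X → N X → Prop
  feq_refl : ∀ {X : C} (a : N X), feq a a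
  feq_symm : ∀ {X : C} {a b : N X}, feq a b → feq b a
  feq_trans : ∀ {X : C} {a b c : N X}, feq a b → feq b c → feq a c
  feq_mono : ∀ {X Y : C} (f : X ⟶ Y) {a b : N X}, feq a b → feq (mv f a) (mv f b)
  fmem_mono : ∀ {X Y : C} (f : X ⟶ Y) {a b : N X}, fmem a b → fmem (mv f a) (mv f b)
  feq_local : ∀ {X : C} {a b : N X},
    (∀ (Y : C) (f : X ⟶ Y), ∃ (Z : C) (g : Y ⟶ Z), feq (mv g (mv f a)) (mv g (mv f b))) →
      feq a b
  fmem_local : ∀ {X : C} {a b : N X},
    (∀ (Y : C) (f : X ⟶ Y), ∃ (Z : C) (g : Y ⟶ Z), fmem (mv g (mv f a)) (mv g (mv f b))) →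
      fmem a b
  fmem_congr : ∀ {X : C} {a a' b b' : N X}, feq a a' → feq b b' → fmem a b → fmem a' b'

section
variable {C : Type u} [Category.{v} C] (A : Atomic.{u, v, w} C)

/-- Forcing of formulas. -/
def Forces : ∀ {n : ℕ}, Fml n → ∀ X : C, (Fin n → A.N X) → Prop
  | _, .bot, _, _ => False
  | _, .eq i j, _, xs => A.feq (xs i) (xs j)
  | _, .mem i j, _, xs => A.fmem (xs i) (xs j)
  | _, .imp φ ψ, X, xs => ∀ (Y : C) (f : X ⟶ Y),
      Forces φ Y (fun i => A.mv f (xs i)) → Forces ψ Y (fun i => A.mv f (xs i))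
  | _, .all φ, X, xs => ∀ (Y : C) (f : X ⟶ Y) (a : A.N Y),
      Forces φ Y (Fin.snoc (fun i => A.mv f (xs i)) a)

variable {A}

theorem snoc_mv {X Y : C} (f : X ⟶ Y) {n : ℕ} (xs : Fin n → A.N X) (a : A.N X) :
    (fun i => A.mv f (Fin.snoc (α := fun _ => A.N X) xs a i)) =
      Fin.snoc (α := fun _ => A.N Y) (fun i => A.mv f (xs i)) (A.mv f a) := by
  funext i
  refine Fin.lastCases ?_ (fun j => ?_) i
  · simp
  · simp

theorem forces_bot {n : ℕ} {X : C} {xs : Fin n → A.N X} :
    Forces A (.bot : Fml n) X xs ↔ False := Iff.rfl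

theorem forces_eq {n : ℕ} {X : C} {xs : Fin n → A.N X} (i j : Fin n) :
    Forces A (.eq i j) X xs ↔ A.feq (xs i) (xs j) := Iff.rfl

theorem forces_mem {n : ℕ} {X : C} {xs : Fin n → A.N X} (i j : Fin n) :
    Forces A (.mem i j) X xs ↔ A.fmem (xs i) (xs j) := Iff.rfl

theorem forces_imp {n : ℕ} {X : C} {xs : Fin n → A.N X} (φ ψ : Fml n) :
    Forces A (φ.imp ψ) X xs ↔ ∀ (Y : C) (f : X ⟶ Y),
      Forces A φ Y (fun i => A.mv f (xs i)) → Forces A ψ Y (fun i => A.mv f (xs i)) := Iff.rfl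

theorem forces_all {n : ℕ} {X : C} {xs : Fin n → A.N X} (φ : Fml (n + 1)) :
    Forces A φ.all X xs ↔ ∀ (Y : C) (f : X ⟶ Y) (a : A.N Y),
      Forces A φ Y (Fin.snoc (fun i => A.mv f (xs i)) a) := Iff.rfl

/-- Forcing is monotone. -/
theorem forces_mono {n : ℕ} (φ : Fml n) {X Y : C} (f : X ⟶ Y) {xs : Fin n → A.N X}
    (h : Forces A φ X xs) : Forces A φ Y (fun i => A.mv f (xs i)) := by
  cases φ with
  | bot => exact h
  | eq i j => exact A.feq_mono f h
  | mem i j => exact A.fmem_mono f h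
  | imp φ ψ =>
      intro Z g hφ
      have := h Z (f ≫ g)
      simp only [A.mv_comp] at this
      exact this hφ
  | all φ =>
      intro Z g a
      have := h Z (f ≫ g) a
      simp only [A.mv_comp] at this
      exact this

/-- Forcing is local. -/
theorem forces_local {n : ℕ} (φ : Fml n) {X : C} {xs : Fin n → A.N X}
    (h : ∀ (Y : C) (f : X ⟶ Y), ∃ (Z : C) (g : Y ⟶ Z),
      Forces A φ Z (fun i => A.mv g (A.mv f (xs i)))) : Forces A φ X xs := by
  induction φ generalizing X with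
  | bot =>
      obtain ⟨Z, g, hg⟩ := h X (𝟙 X)
      exact hg
  | eq i j => exact A.feq_local h
  | mem i j => exact A.fmem_local h
  | imp φ ψ _ ihψ =>
      intro Y f hφ
      refine ihψ fun Y' f' => ?_
      obtain ⟨Z, g, hg⟩ := h Y' (f ≫ f')
      refine ⟨Z, g, ?_⟩
      have h1 := hg Z (𝟙 Z)
      simp only [A.mv_id, A.mv_comp] at h1
      refine h1 ?_
      have h2 := forces_mono φ (f' ≫ g) hφ
      simp only [A.mv_comp] at h2
      exact h2
  | all φ ih =>
      intro Y f a
      refine ih fun Y' f' => ?_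
      obtain ⟨Z, g, hg⟩ := h Y' (f ≫ f')
      refine ⟨Z, g, ?_⟩
      have h1 := hg Z (𝟙 Z) (A.mv g (A.mv f' a))
      simp only [A.mv_id, A.mv_comp] at h1
      have e1 : (fun i => A.mv g (A.mv f' (Fin.snoc (α := fun _ => A.N Y)
          (fun i => A.mv f (xs i)) a i))) =
          Fin.snoc (α := fun _ => A.N Z) (fun i => A.mv g (A.mv f' (A.mv f (xs i))))
            (A.mv g (A.mv f' a)) := by
        have := snoc_mv (A := A) (f' ≫ g) (fun i => A.mv f (xs i)) a
        simpa only [A.mv_comp] using this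
      rw [e1]
      exact h1

/-- Forcing respects forced equality of the parameters. -/
theorem forces_congr {n : ℕ} (φ : Fml n) {X : C} {xs ys : Fin n → A.N X}
    (e : ∀ i, A.feq (xs i) (ys i)) (h : Forces A φ X xs) : Forces A φ X ys := by
  induction φ generalizing X with
  | bot => exact h
  | eq i j => exact A.feq_trans (A.feq_symm (e i)) (A.feq_trans h (e j))
  | mem i j => exact A.fmem_congr (e i) (e j) h
  | imp φ ψ ihφ ihψ =>
      intro Y f hφ
      refine ihψ (fun i => A.feq_mono f (e i)) (h Y f ?_)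
      exact ihφ (fun i => A.feq_symm (A.feq_mono f (e i))) hφ
  | all φ ih =>
      intro Y f a
      refine ih (fun i => ?_) (h Y f a)
      refine Fin.lastCases ?_ (fun j => ?_) i
      · simpa using A.feq_refl a
      · simpa using A.feq_mono f (e j)

theorem forces_iff_congr {n : ℕ} (φ : Fml n) {X : C} {xs ys : Fin n → A.N X}
    (e : ∀ i, A.feq (xs i) (ys i)) : Forces A φ X xs ↔ Forces A φ X ys :=
  ⟨forces_congr φ e, forces_congr φ fun i => A.feq_symm (e i)⟩

/-- Forcing and renaming of variables. -/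
theorem forces_rename {n : ℕ} (φ : Fml n) {m : ℕ} (r : Fin n → Fin m) {X : C}
    (xs : Fin m → A.N X) : Forces A (φ.rename r) X xs ↔ Forces A φ X (fun i => xs (r i)) := by
  induction φ generalizing m X with
  | bot => exact Iff.rfl
  | eq i j => exact Iff.rfl
  | mem i j => exact Iff.rfl
  | imp φ ψ ihφ ihψ =>
      exact forall_congr' fun Y => forall_congr' fun f => imp_congr (ihφ r _) (ihψ r _)
  | all φ ih =>
      refine forall_congr' fun Y => forall_congr' fun f => forall_congr' fun a => ?_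
      rw [ih (Fml.liftR r)]
      have : (fun i => (Fin.snoc (α := fun _ => A.N Y) (fun i => A.mv f (xs i)) a)
          (Fml.liftR r i)) = Fin.snoc (α := fun _ => A.N Y) (fun i => A.mv f (xs (r i))) a := by
        funext i
        refine Fin.lastCases ?_ (fun j => ?_) i
        · simp
        · simp
      rw [this]

theorem forces_neg {n : ℕ} {X : C} {xs : Fin n → A.N X} (φ : Fml n) :
    Forces A φ.neg X xs ↔ ∀ (Y : C) (f : X ⟶ Y), ¬ Forces A φ Y (fun i => A.mv f (xs i)) :=
  Iff.rfl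

/-- Every formula is densely decided. -/
theorem forces_dec {n : ℕ} (φ : Fml n) {X : C} (xs : Fin n → A.N X) :
    Forces A φ.neg X xs ∨ ∃ (Y : C) (f : X ⟶ Y), Forces A φ Y (fun i => A.mv f (xs i)) := by
  by_cases h : ∃ (Y : C) (f : X ⟶ Y), Forces A φ Y (fun i => A.mv f (xs i))
  · exact Or.inr h
  · refine Or.inl ?_
    rw [forces_neg]
    intro Y f hY
    exact h ⟨Y, f, hY⟩

theorem not_forces {n : ℕ} (φ : Fml n) {X : C} {xs : Fin n → A.N X} (h : ¬ Forces A φ X xs) :
    ∃ (Y : C) (f : X ⟶ Y), Forces A φ.neg Y (fun i => A.mv f (xs i)) := by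
  by_contra hc
  push Not at hc
  refine h (forces_local φ fun Y f => ?_)
  rcases forces_dec φ (fun i => A.mv f (xs i)) with h1 | ⟨Z, g, h1⟩
  · exact absurd h1 (hc Y f)
  · exact ⟨Z, g, h1⟩

theorem forces_and {n : ℕ} {X : C} {xs : Fin n → A.N X} (φ ψ : Fml n) :
    Forces A (φ.and ψ) X xs ↔ Forces A φ X xs ∧ Forces A ψ X xs := by
  change Forces A ((φ.imp ψ.neg).neg) X xs ↔ _
  constructor
  · intro h
    constructor
    · by_contra hc
      obtain ⟨Y, f, hf⟩ := not_forces φ hc
      refine (h Y f) ?_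
      intro Z g hg
      exact absurd hg (hf Z g)
    · by_contra hc
      obtain ⟨Y, f, hf⟩ := not_forces ψ hc
      refine (h Y f) ?_
      intro Z g _
      exact forces_mono ψ.neg g hf
  · rintro ⟨h1, h2⟩ Y f hc
    have := hc Y (𝟙 Y)
    simp only [A.mv_id] at this
    refine this (forces_mono φ f h1) Y (𝟙 Y) ?_
    simp only [A.mv_id]
    exact forces_mono ψ f h2

theorem forces_iff {n : ℕ} {X : C} {xs : Fin n → A.N X} (φ ψ : Fml n) :
    Forces A (φ.iff ψ) X xs ↔ ∀ (Y : C) (f : X ⟶ Y),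
      (Forces A φ Y (fun i => A.mv f (xs i)) ↔ Forces A ψ Y (fun i => A.mv f (xs i))) := by
  rw [Fml.iff, forces_and, forces_imp, forces_imp]
  exact ⟨fun h Y f => ⟨h.1 Y f, h.2 Y f⟩, fun h => ⟨fun Y f => (h Y f).1, fun Y f => (h Y f).2⟩⟩

theorem forces_or {n : ℕ} {X : C} {xs : Fin n → A.N X} (φ ψ : Fml n) :
    Forces A (φ.or ψ) X xs ↔ ∀ (Y : C) (f : X ⟶ Y), ∃ (Z : C) (g : Y ⟶ Z),
      Forces A φ Z (fun i => A.mv g (A.mv f (xs i))) ∨
        Forces A ψ Z (fun i => A.mv g (A.mv f (xs i))) := by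
  change Forces A (φ.neg.imp ψ) X xs ↔ _
  constructor
  · intro h Y f
    rcases forces_dec φ (fun i => A.mv f (xs i)) with h1 | ⟨Z, g, h1⟩
    · refine ⟨Y, 𝟙 Y, Or.inr ?_⟩
      simp only [A.mv_id]
      exact h Y f h1
    · exact ⟨Z, g, Or.inl h1⟩
  · intro h Y f h1
    refine forces_local ψ fun Y' f' => ?_
    obtain ⟨Z, g, hg⟩ := h Y' (f ≫ f')
    refine ⟨Z, g, ?_⟩
    rcases hg with hg | hg
    · have := h1 Z (f' ≫ g)
      simp only [A.mv_comp] at this hg
      exact absurd hg this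
    · simp only [A.mv_comp] at hg
      exact hg

theorem forces_ex {n : ℕ} {X : C} {xs : Fin n → A.N X} (φ : Fml (n + 1)) :
    Forces A φ.ex X xs ↔ ∀ (Y : C) (f : X ⟶ Y), ∃ (Z : C) (g : Y ⟶ Z) (a : A.N Z),
      Forces A φ Z (Fin.snoc (fun i => A.mv g (A.mv f (xs i))) a) := by
  change Forces A (φ.neg.all.neg) X xs ↔ _
  constructor
  · intro h Y f
    by_contra hc
    push Not at hc
    refine h Y f ?_
    intro Z g a W k hk
    refine hc W (g ≫ k) (A.mv k a) ?_
    rw [snoc_mv] at hk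
    simp only [A.mv_comp]
    exact hk
  · intro h Y f hc
    obtain ⟨Z, g, a, ha⟩ := h Y f
    have := hc Z g a Z (𝟙 Z)
    simp only [A.mv_id] at this
    exact this ha

/-- Forcing is closed under forced implication. -/
theorem forces_mp {n : ℕ} {X : C} {xs : Fin n → A.N X} {φ ψ : Fml n}
    (h : Forces A (φ.imp ψ) X xs) (hφ : Forces A φ X xs) : Forces A ψ X xs := by
  have := h X (𝟙 X)
  simp only [A.mv_id] at this
  exact this hφ

end

end Vale.Agent.P323.F
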