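import Mathlib.ModelTheory.Encoding
import Mathlib.Data.Fintype.Lattice
import Mathlib.Order.Interval.Set.Infinite
import Mathlib.Order.Interval.Finset.Nat
import Mathlib.Data.Set.Finite.Lattice
import Vale.Agent.P323.F.Atomic

/-!
The end of the forcing argument (helper379): below every condition there is a generic sequence
of conditions and names, and the names on it form a countable structure `(M, E)` whose truth is
forcing at some condition of the sequence.

Main results: `Gen.truth` (truth lemma) and `exists_model`.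
-/

set_option autoImplicit false

namespace Vale.Agent.P323.F

open CategoryTheory Vale.Agent.P323.Z

universe u v w

/-! ### Generic sequences, abstractly -/

/-- A sequence of conditions `X 0 -> X 1 -> ...` together with names; the name with number `k`
is chosen when one passes from `X k` to `X (k+1)`, in such a way that the requirement with
number `k` is met. -/
theorem exists_path {C : Type u} [Category.{v} C] (N : C → Type w)
    (mv : ∀ {X Y : C}, (X ⟶ Y) → N X → N Y)
    (P : ∀ (_ : ℕ) (X : C) (_ : ℕ → N X) (Y : C) (_ : X ⟶ Y) (_ : N Y), Prop)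
    (hP : ∀ k X ν, ∃ (Y : C) (f : X ⟶ Y) (b : N Y), P k X ν Y f b) (X0 : C) (ν0 : ℕ → N X0) :
    ∃ (X : ℕ → C) (ν : ∀ k, ℕ → N (X k)) (f : ∀ k, X k ⟶ X (k + 1)), X 0 = X0 ∧
      (∀ k, P k (X k) (ν k) (X (k + 1)) (f k) (ν (k + 1) k)) ∧
      ∀ k i, i ≠ k → ν (k + 1) i = mv (f k) (ν k i) := by
  classical
  choose Y f b h using hP
  let st : ℕ → Σ X : C, ℕ → N X := fun k => Nat.rec ⟨X0, ν0⟩
    (fun k s => ⟨Y k s.1 s.2, Function.update (fun i => mv (f k s.1 s.2) (s.2 i)) k
      (b k s.1 s.2)⟩) k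
  refine ⟨fun k => (st k).1, fun k => (st k).2, fun k => f k (st k).1 (st k).2, rfl, ?_, ?_⟩
  · intro k
    show P k (st k).1 (st k).2 (Y k (st k).1 (st k).2) (f k (st k).1 (st k).2)
      (Function.update (fun i => mv (f k (st k).1 (st k).2) ((st k).2 i)) k
        (b k (st k).1 (st k).2) k)
    rw [Function.update_self]
    exact h k (st k).1 (st k).2
  · intro k i hi
    show Function.update (fun i => mv (f k (st k).1 (st k).2) ((st k).2 i)) k
        (b k (st k).1 (st k).2) i = _
    rw [Function.update_of_ne hi]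

/-- Every member of a countable type is met at arbitrarily late times. -/
theorem exists_enum (T : Type v) [Countable T] [Nonempty T] :
    ∃ e : ℕ → T, ∀ (t : T) (m : ℕ), ∃ k, m ≤ k ∧ e k = t := by
  obtain ⟨g, hg⟩ := exists_surjective_nat (T × ℕ)
  refine ⟨fun k => (g k).1, fun t m => ?_⟩
  by_contra hcon
  push Not at hcon
  have hsub : Set.range (fun j : ℕ => (t, j)) ⊆ g '' (Set.Iio m) := by
    rintro _ ⟨j, rfl⟩
    obtain ⟨k, hk⟩ := hg (t, j)
    refine ⟨k, ?_, hk⟩
    by_contra hkm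
    exact hcon k (by simpa using hkm) (by rw [hk])
  have hfin : (Set.range (fun j : ℕ => (t, j))).Finite :=
    ((Set.finite_Iio m).image g).subset hsub
  exact (Set.infinite_range_of_injective (fun a b hab => by simpa using hab)) hfin

/-! ### Countability of the set of formulas -/

theorem ofBF_surjective : ∀ {n : ℕ} (φ : Fml n),
    ∃ ψ : LSet.BoundedFormula Empty n, Fml.ofBF ψ = φ := by
  intro n φ
  induction φ with
  | bot => exact ⟨.falsum, rfl⟩
  | eq i j => exact ⟨.equal (.var (.inr i)) (.var (.inr j)), rfl⟩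
  | mem i j =>
    refine ⟨.rel MemSymb.mem ![.var (.inr i), .var (.inr j)], rfl⟩
  | imp φ ψ h1 h2 =>
    obtain ⟨a, rfl⟩ := h1
    obtain ⟨b, rfl⟩ := h2
    exact ⟨.imp a b, rfl⟩
  | all φ h =>
    obtain ⟨a, rfl⟩ := h
    exact ⟨.all a, rfl⟩

instance countable_LSet : Countable LSet.Symbols := by
  have h1 : Countable (Σ l, LSet.Functions l) := by
    have : ∀ l, Countable (LSet.Functions l) := fun l => (inferInstance : Countable Empty)
    infer_instance
  have h2 : Countable (Σ l, LSet.Relations l) := by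
    have : ∀ l, Countable (LSet.Relations l) := by
      intro l
      have : Subsingleton (MemSymb l) := ⟨fun a b => by cases a; cases b; rfl⟩
      exact (inferInstance : Countable (MemSymb l))
    infer_instance
  exact (inferInstance : Countable ((Σ l, LSet.Functions l) ⊕ (Σ l, LSet.Relations l)))

instance countable_Fml (n : ℕ) : Countable (Fml n) := by
  have h1 : Countable (LSet.BoundedFormula Empty n) :=
    (sigma_mk_injective (i := n) : Function.Injective
      (fun φ : LSet.BoundedFormula Empty n =>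
        (⟨n, φ⟩ : Σ n, LSet.BoundedFormula Empty n))).countable
  exact (show Function.Surjective (Fml.ofBF (n := n)) from ofBF_surjective).countable

/-! ### Decisions and witnesses -/

variable {C : Type u} [Category.{v} C] (A : Atomic.{u, v, w} C)

/-- Decision. -/
theorem exists_decide {n : ℕ} (φ : Fml n) {X : C} (a : Fin n → A.N X) :
    ∃ (Y : C) (f : X ⟶ Y), Forces A φ Y (fun i => A.mv f (a i)) ∨
      Forces A φ.neg Y (fun i => A.mv f (a i)) := by
  rcases forces_dec (A := A) φ a with h | ⟨Y, f, h⟩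
  · refine ⟨X, 𝟙 X, Or.inr ?_⟩
    simp only [A.mv_id]
    exact h
  · exact ⟨Y, f, Or.inl h⟩

/-- Witnesses. -/
theorem exists_witness {n : ℕ} (φ : Fml (n + 1)) {X : C} (a : Fin n → A.N X) :
    ∃ (Y : C) (f : X ⟶ Y) (b : A.N Y), Forces A φ.all Y (fun i => A.mv f (a i)) ∨
      Forces A φ.neg Y (Fin.snoc (fun i => A.mv f (a i)) b) := by
  by_cases h : ∃ (Y : C) (f : X ⟶ Y) (b : A.N Y),
      Forces A φ.neg Y (Fin.snoc (fun i => A.mv f (a i)) b)
  · obtain ⟨Y, f, b, h⟩ := h
    exact ⟨Y, f, b, Or.inr h⟩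
  · obtain ⟨b0⟩ := A.ne X
    refine ⟨X, 𝟙 X, b0, Or.inl ?_⟩
    intro Y f b
    simp only [A.mv_id]
    by_contra hcon
    obtain ⟨Z, g, hg⟩ := not_forces φ hcon
    refine h ⟨Z, f ≫ g, A.mv g b, ?_⟩
    rw [snoc_mv] at hg
    simp only [A.mv_comp]
    exact hg

/-- A generic sequence of conditions and names. -/
structure Gen where
  /-- the conditions -/
  X : ℕ → C
  /-- the names; the name with number `i` is relevant from the condition with number `i + 1` on -/
  nu : ∀ k, ℕ → A.N (X k)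
  /-- the extensions -/
  f : ∀ k, X k ⟶ X (k + 1)
  move : ∀ k i, i ≠ k → nu (k + 1) i = A.mv (f k) (nu k i)
  dec : ∀ {n : ℕ} (φ : Fml n) (s : Fin n → ℕ), ∃ k, (∀ j, s j < k) ∧
    (Forces A φ (X k) (fun j => nu k (s j)) ∨ Forces A φ.neg (X k) (fun j => nu k (s j)))
  wit : ∀ {n : ℕ} (φ : Fml (n + 1)) (s : Fin n → ℕ), ∃ k, (∀ j, s j < k) ∧
    (Forces A φ.all (X k) (fun j => nu k (s j)) ∨ ∃ i, i < k ∧
      Forces A φ.neg (X k) (Fin.snoc (fun j => nu k (s j)) (nu k i)))

/-- The tasks of the generic sequence. -/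
abbrev Task : Type :=
  (Σ n : ℕ, Fml n × (Fin n → ℕ)) ⊕ (Σ n : ℕ, Fml (n + 1) × (Fin n → ℕ))

/-- The requirement imposed by a task. -/
def Req (t : Task) {X : C} (ν : ℕ → A.N X) {Y : C} (f : X ⟶ Y) (b : A.N Y) : Prop :=
  match t with
  | Sum.inl ⟨_, φ, s⟩ => Forces A φ Y (fun j => A.mv f (ν (s j))) ∨
      Forces A φ.neg Y (fun j => A.mv f (ν (s j)))
  | Sum.inr ⟨_, φ, s⟩ => Forces A φ.all Y (fun j => A.mv f (ν (s j))) ∨
      Forces A φ.neg Y (Fin.snoc (fun j => A.mv f (ν (s j))) b)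

theorem exists_req (t : Task) {X : C} (ν : ℕ → A.N X) :
    ∃ (Y : C) (f : X ⟶ Y) (b : A.N Y), Req A t ν f b := by
  rcases t with ⟨n, φ, s⟩ | ⟨n, φ, s⟩
  · obtain ⟨Y, f, h⟩ := exists_decide A φ (fun j => ν (s j))
    obtain ⟨b⟩ := A.ne Y
    exact ⟨Y, f, b, h⟩
  · obtain ⟨Y, f, b, h⟩ := exists_witness A φ (fun j => ν (s j))
    exact ⟨Y, f, b, h⟩

theorem exists_bound {n : ℕ} (s : Fin n → ℕ) : ∃ m, ∀ j, s j < m :=
  ⟨(Finset.univ.sup s) + 1, fun j =>
    Nat.lt_succ_of_le (Finset.le_sup (f := s) (Finset.mem_univ j))⟩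

/-- Generic sequences exist below every condition. -/
theorem exists_gen (X0 : C) : ∃ G : Gen A, G.X 0 = X0 := by
  have : Nonempty Task := ⟨Sum.inl ⟨0, .bot, fun j => j.elim0⟩⟩
  obtain ⟨e, he⟩ := exists_enum Task
  obtain ⟨ν0⟩ : Nonempty (ℕ → A.N X0) := by
    obtain ⟨b⟩ := A.ne X0
    exact ⟨fun _ => b⟩
  obtain ⟨X, nu, f, h0, h1, h2⟩ := exists_path A.N (fun {X Y} f => A.mv f)
    (fun k X ν Y f b => Req A (e k) ν f b) (fun k X ν => exists_req A (e k) ν) X0 ν0
  refine ⟨⟨X, nu, f, h2, ?_, ?_⟩, h0⟩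
  · intro n φ s
    obtain ⟨m, hm⟩ := exists_bound s
    obtain ⟨k, hk, hek⟩ := he (Sum.inl ⟨n, φ, s⟩) m
    refine ⟨k + 1, fun j => lt_of_lt_of_le (hm j) (by omega), ?_⟩
    have h3 := h1 k
    simp only [hek, Req] at h3
    have h4 : (fun j => nu (k + 1) (s j)) = fun j => A.mv (f k) (nu k (s j)) := by
      funext j
      exact h2 k (s j) (by have := hm j; omega)
    rw [h4]
    exact h3
  · intro n φ s
    obtain ⟨m, hm⟩ := exists_bound s
    obtain ⟨k, hk, hek⟩ := he (Sum.inr ⟨n, φ, s⟩) m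
    refine ⟨k + 1, fun j => lt_of_lt_of_le (hm j) (by omega), ?_⟩
    have h3 := h1 k
    simp only [hek, Req] at h3
    have h4 : (fun j => nu (k + 1) (s j)) = fun j => A.mv (f k) (nu k (s j)) := by
      funext j
      exact h2 k (s j) (by have := hm j; omega)
    rw [h4]
    rcases h3 with h3 | h3
    · exact Or.inl h3
    · exact Or.inr ⟨k, by omega, h3⟩

namespace Gen

variable {A}
variable (G : Gen A)

/-- Forcing along the sequence is monotone. -/
theorem mono_step {n : ℕ} (φ : Fml n) (s : Fin n → ℕ) {k l : ℕ}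
    (hkl : k ≤ l) (hs : ∀ j, s j < k) (h : Forces A φ (G.X k) (fun j => G.nu k (s j))) :
    Forces A φ (G.X l) (fun j => G.nu l (s j)) := by
  induction l, hkl using Nat.le_induction with
  | base => exact h
  | succ l hl ih =>
    have h4 : (fun j => G.nu (l + 1) (s j)) = fun j => A.mv (G.f l) (G.nu l (s j)) := by
      funext j
      exact G.move l (s j) (by have := hs j; omega)
    rw [h4]
    exact forces_mono φ _ ih

/-- Truth along the sequence. -/
def TF {n : ℕ} (φ : Fml n) (s : Fin n → ℕ) : Prop :=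
  ∃ k, (∀ j, s j < k) ∧ Forces A φ (G.X k) (fun j => G.nu k (s j))

theorem TF_imp {n : ℕ} (φ ψ : Fml n) (s : Fin n → ℕ) :
    G.TF (φ.imp ψ) s ↔ (G.TF φ s → G.TF ψ s) := by
  constructor
  · rintro ⟨k, hk, h⟩ ⟨l, hl, h'⟩
    refine ⟨max k l, fun j => lt_of_lt_of_le (hk j) (le_max_left _ _), ?_⟩
    exact forces_mp (G.mono_step _ s (le_max_left k l) hk h)
      (G.mono_step _ s (le_max_right k l) hl h')
  · intro h
    obtain ⟨k, hk, h1⟩ := G.dec (φ.imp ψ) s
    rcases h1 with h1 | h1
    · exact ⟨k, hk, h1⟩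
    · obtain ⟨l, hl, h2⟩ := G.dec φ s
      rcases h2 with h2 | h2
      · obtain ⟨m, hm, h3⟩ := h ⟨l, hl, h2⟩
        exfalso
        have a1 := G.mono_step _ s (le_max_left k m) hk h1
        have a3 := G.mono_step _ s (le_max_right k m) hm h3
        refine a1 _ (𝟙 _) ?_
        simp only [A.mv_id]
        intro Y f _
        exact forces_mono ψ f a3
      · exfalso
        have a1 := G.mono_step _ s (le_max_left k l) hk h1
        have a2 := G.mono_step _ s (le_max_right k l) hl h2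
        refine a1 _ (𝟙 _) ?_
        simp only [A.mv_id]
        intro Y f h5
        exact (a2 Y f h5).elim

theorem snoc_nu {n : ℕ} (k : ℕ) (s : Fin n → ℕ) (i : ℕ) :
    (fun j => G.nu k ((Fin.snoc s i : Fin (n + 1) → ℕ) j)) =
      (Fin.snoc (fun j => G.nu k (s j)) (G.nu k i) : Fin (n + 1) → A.N (G.X k)) := by
  funext j
  refine Fin.lastCases ?_ (fun j => ?_) j
  · simp
  · simp

theorem snoc_lt {n : ℕ} {k : ℕ} {s : Fin n → ℕ} {i : ℕ} (hs : ∀ j, s j < k) (hi : i < k)
    (j : Fin (n + 1)) : (Fin.snoc s i : Fin (n + 1) → ℕ) j < k := by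
  refine Fin.lastCases ?_ (fun j => ?_) j
  · simpa using hi
  · simpa using hs j

theorem TF_all {n : ℕ} (φ : Fml (n + 1)) (s : Fin n → ℕ) :
    G.TF φ.all s ↔ ∀ i, G.TF φ (Fin.snoc s i) := by
  constructor
  · rintro ⟨k, hk, h⟩ i
    refine ⟨max k (i + 1), snoc_lt (fun j => lt_of_lt_of_le (hk j) (le_max_left _ _))
      (lt_of_lt_of_le (Nat.lt_succ_self i) (le_max_right _ _)), ?_⟩
    have h1 := G.mono_step _ s (le_max_left k (i + 1)) hk h
    have h3 := h1 _ (𝟙 _) (G.nu (max k (i + 1)) i)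
    simp only [A.mv_id] at h3
    rw [snoc_nu]
    exact h3
  · intro h
    obtain ⟨k, hk, h1⟩ := G.wit φ s
    rcases h1 with h1 | ⟨i, hi, h1⟩
    · exact ⟨k, hk, h1⟩
    · obtain ⟨m, hm, h3⟩ := h i
      exfalso
      rw [← snoc_nu] at h1
      have a1 := G.mono_step _ _ (le_max_left k m) (snoc_lt hk hi) h1
      have a3 := G.mono_step _ _ (le_max_right k m) hm h3
      refine a1 _ (𝟙 _) ?_
      simp only [A.mv_id]
      exact a3

/-- Equality of names along the sequence. -/
def req (i j : ℕ) : Prop := ∃ k, i < k ∧ j < k ∧ A.feq (G.nu k i) (G.nu k j)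

/-- Membership of names along the sequence. -/
def rmem (i j : ℕ) : Prop := ∃ k, i < k ∧ j < k ∧ A.fmem (G.nu k i) (G.nu k j)

theorem feq_mono_step {i j k l : ℕ} (hkl : k ≤ l) (hi : i < k) (hj : j < k)
    (h : A.feq (G.nu k i) (G.nu k j)) : A.feq (G.nu l i) (G.nu l j) := by
  induction l, hkl using Nat.le_induction with
  | base => exact h
  | succ l hl ih =>
    rw [G.move l i (by omega), G.move l j (by omega)]
    exact A.feq_mono _ ih

theorem fmem_mono_step {i j k l : ℕ} (hkl : k ≤ l) (hi : i < k) (hj : j < k)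
    (h : A.fmem (G.nu k i) (G.nu k j)) : A.fmem (G.nu l i) (G.nu l j) := by
  induction l, hkl using Nat.le_induction with
  | base => exact h
  | succ l hl ih =>
    rw [G.move l i (by omega), G.move l j (by omega)]
    exact A.fmem_mono _ ih

/-- The setoid of equality of names. -/
def setoid : Setoid ℕ where
  r := G.req
  iseqv :=
    { refl := fun i => ⟨i + 1, Nat.lt_succ_self i, Nat.lt_succ_self i, A.feq_refl _⟩
      symm := fun ⟨k, hi, hj, h⟩ => ⟨k, hj, hi, A.feq_symm h⟩
      trans := fun ⟨k, hi, hj, h⟩ ⟨m, hj', hl, h'⟩ =>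
        ⟨max k m, lt_of_lt_of_le hi (le_max_left _ _), lt_of_lt_of_le hl (le_max_right _ _),
          A.feq_trans (G.feq_mono_step (le_max_left k m) hi hj h)
            (G.feq_mono_step (le_max_right k m) hj' hl h')⟩ }

/-- The model given by the sequence. -/
def M : Type := Quotient G.setoid

/-- The class of a name. -/
def cl (i : ℕ) : G.M := Quotient.mk G.setoid i

theorem cl_surjective (x : G.M) : ∃ i, G.cl i = x := Quotient.exists_rep x

/-- Membership in the model. -/
def E : G.M → G.M → Prop :=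
  Quotient.lift₂ G.rmem (by
    rintro i j i' j' ⟨k, h1, h2, h3⟩ ⟨k', h1', h2', h3'⟩
    apply propext
    constructor
    · rintro ⟨l, e1, e2, e3⟩
      refine ⟨max l (max k k'), by omega, by omega, ?_⟩
      exact A.fmem_congr (G.feq_mono_step (by omega) h1 h2 h3)
        (G.feq_mono_step (by omega) h1' h2' h3') (G.fmem_mono_step (by omega) e1 e2 e3)
    · rintro ⟨l, e1, e2, e3⟩
      refine ⟨max l (max k k'), by omega, by omega, ?_⟩
      exact A.fmem_congr (A.feq_symm (G.feq_mono_step (by omega) h1 h2 h3))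
        (A.feq_symm (G.feq_mono_step (by omega) h1' h2' h3'))
        (G.fmem_mono_step (by omega) e1 e2 e3))

theorem cl_eq {i j : ℕ} : G.cl i = G.cl j ↔ G.req i j :=
  ⟨fun h => Quotient.exact h, fun h => Quotient.sound h⟩

theorem E_cl {i j : ℕ} : G.E (G.cl i) (G.cl j) ↔ G.rmem i j := Iff.rfl

theorem snoc_cl {n : ℕ} (s : Fin n → ℕ) (i : ℕ) :
    (fun j => G.cl ((Fin.snoc s i : Fin (n + 1) → ℕ) j)) =
      (Fin.snoc (fun j => G.cl (s j)) (G.cl i) : Fin (n + 1) → G.M) := by
  funext j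
  refine Fin.lastCases ?_ (fun j => ?_) j
  · simp
  · simp

/-- The truth lemma. -/
theorem truth {n : ℕ} (φ : Fml n) (s : Fin n → ℕ) :
    φ.Sat G.E (fun j => G.cl (s j)) ↔ G.TF φ s := by
  induction φ with
  | bot =>
    constructor
    · intro h; exact h.elim
    · rintro ⟨k, _, h⟩; exact h.elim
  | @eq n i' j' =>
    rw [Fml.sat_eq, cl_eq]
    constructor
    · rintro ⟨k, hi, hj, h⟩
      obtain ⟨m, hm⟩ := exists_bound s
      exact ⟨max k m, fun j => lt_of_lt_of_le (hm j) (le_max_right _ _),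
        G.feq_mono_step (le_max_left _ _) hi hj h⟩
    · rintro ⟨k, hk, h⟩
      exact ⟨k, hk _, hk _, h⟩
  | @mem n i' j' =>
    rw [Fml.sat_mem, E_cl]
    constructor
    · rintro ⟨k, hi, hj, h⟩
      obtain ⟨m, hm⟩ := exists_bound s
      exact ⟨max k m, fun j => lt_of_lt_of_le (hm j) (le_max_right _ _),
        G.fmem_mono_step (le_max_left _ _) hi hj h⟩
    · rintro ⟨k, hk, h⟩
      exact ⟨k, hk _, hk _, h⟩
  | imp φ ψ ih1 ih2 =>
    rw [G.TF_imp, ← ih1 s, ← ih2 s]
    exact Iff.rfl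
  | all φ ih =>
    rw [G.TF_all]
    constructor
    · intro h i
      rw [← ih (Fin.snoc s i), snoc_cl]
      exact h (G.cl i)
    · intro h x
      obtain ⟨i, rfl⟩ := G.cl_surjective x
      rw [← snoc_cl]
      exact (ih (Fin.snoc s i)).2 (h i)

end Gen

/-- Below every condition there is a countable structure in which every sentence forced at
that condition is true. -/
theorem exists_model (X0 : C) : ∃ (M : Type) (E : M → M → Prop), Nonempty M ∧
    ∀ (φ : Fml 0) (v : Fin 0 → M), Forces A φ X0 (fun i => i.elim0) → φ.Sat E v := by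
  obtain ⟨G, rfl⟩ := exists_gen A X0
  refine ⟨G.M, G.E, ⟨G.cl 0⟩, fun φ v h => ?_⟩
  have e1 : ∀ xs ys : Fin 0 → A.N (G.X 0), xs = ys := fun xs ys => funext fun i => i.elim0
  have e2 : ∀ xs ys : Fin 0 → G.M, xs = ys := fun xs ys => funext fun i => i.elim0
  have h1 : G.TF φ (fun i : Fin 0 => i.elim0) := by
    refine ⟨0, fun j => j.elim0, ?_⟩
    rw [e1 (fun j => G.nu 0 ((fun i : Fin 0 => i.elim0) j)) (fun i => i.elim0)]
    exact h
  have h2 := (G.truth φ (fun i : Fin 0 => i.elim0)).2 h1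
  rw [e2 v (fun j => G.cl ((fun i : Fin 0 => i.elim0) j))]
  exact h2

/-- The same with parameters: if `φ` is forced at every condition for all names, then it is
true in the model for all parameters. -/
theorem exists_model' (X0 : C) : ∃ (M : Type) (E : M → M → Prop), Nonempty M ∧
    (∀ (n : ℕ) (φ : Fml n), (∀ (X : C) (xs : Fin n → A.N X), Forces A φ X xs) →
      ∀ v : Fin n → M, φ.Sat E v) ∧
    ∀ (φ : Fml 0) (v : Fin 0 → M), Forces A φ X0 (fun i => i.elim0) → φ.Sat E v := by
  obtain ⟨G, rfl⟩ := exists_gen A X0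
  refine ⟨G.M, G.E, ⟨G.cl 0⟩, fun n φ h v => ?_, fun φ v h => ?_⟩
  · choose s hs using fun j => G.cl_surjective (v j)
    obtain rfl : (fun j => G.cl (s j)) = v := funext hs
    rw [G.truth]
    obtain ⟨m, hm⟩ := exists_bound s
    exact ⟨m, hm, h _ _⟩
  · have e1 : ∀ xs ys : Fin 0 → A.N (G.X 0), xs = ys := fun xs ys => funext fun i => i.elim0
    have e2 : ∀ xs ys : Fin 0 → G.M, xs = ys := fun xs ys => funext fun i => i.elim0
    have h1 : G.TF φ (fun i : Fin 0 => i.elim0) := by
      refine ⟨0, fun j => j.elim0, ?_⟩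
      rw [e1 (fun j => G.nu 0 ((fun i : Fin 0 => i.elim0) j)) (fun i => i.elim0)]
      exact h
    have h2 := (G.truth φ (fun i : Fin 0 => i.elim0)).2 h1
    rw [e2 v (fun j => G.cl ((fun i : Fin 0 => i.elim0) j))]
    exact h2

end Vale.Agent.P323.F
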