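import Vale.Agent.P323.F.Names

/-!
Union, power set, separation and collection for the names over a category (shallow forms).

All the names which witness the axioms live at the given object `X` itself.
-/

namespace Vale.Agent.P323.F

open CategoryTheory

universe u

section
variable {C : Type u} [Category.{u} C]

namespace LN

/-- Indices of the explicit elements of a located name. -/
def Ent {X : C} (a : LN C X) : Type u :=
  Σ i : a.core.I, {w : a.core.Z i ⟶ X // a.core.u i ≫ w = a.loc}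

/-- The explicit element with a given index. -/
def Ent.val {X : C} {a : LN C X} (e : Ent a) : LN C X := ⟨a.core.g e.1 ≫ e.2.1, a.core.t e.1⟩

theorem Ent.el {X : C} {a : LN C X} (e : Ent a) : El e.val a := ⟨e.1, e.2.1, e.2.2, rfl⟩

theorem El.exists_ent {X : C} {a b : LN C X} (h : El b a) : ∃ e : Ent a, e.val = b := by
  obtain ⟨i, w, h1, rfl⟩ := h
  exact ⟨⟨i, w, h1⟩, rfl⟩

/-- The name at `X` with a given small family of entries. -/
def build {X : C} (I : Type u) (Z : I → C) (p : ∀ i, X ⟶ Z i) (x : ∀ i, LN C (Z i)) :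
    LN C X :=
  ⟨𝟙 X, .mk X I Z (fun i => (x i).B) p (fun i => (x i).loc) (fun i => (x i).core)⟩

theorem El_build {X Y : C} (f : X ⟶ Y) {I : Type u} {Z : I → C} {p : ∀ i, X ⟶ Z i}
    {x : ∀ i, LN C (Z i)} {c : LN C Y} :
    El c (mv f (build I Z p x)) ↔ ∃ (i : I) (w : Z i ⟶ Y), p i ≫ w = f ∧ c = mv w (x i) := by
  constructor
  · rintro ⟨i, w, h, rfl⟩
    refine ⟨i, w, ?_, rfl⟩
    have h' : p i ≫ w = 𝟙 X ≫ f := h
    rw [h', Category.id_comp]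
  · rintro ⟨i, w, h, rfl⟩
    refine ⟨i, w, ?_, rfl⟩
    show p i ≫ w = 𝟙 X ≫ f
    rw [h, Category.id_comp]

/-- A convenient form of forced membership: composites instead of iterated moves. -/
theorem fmem_iff {X : C} {a b : LN C X} : fmem b a ↔ ∀ (Y : C) (f : X ⟶ Y),
    ∃ (Z : C) (g : Y ⟶ Z) (c : LN C Z), El c (mv (f ≫ g) a) ∧ feq (mv (f ≫ g) b) c := by
  unfold fmem
  simp only [mv_comp]

/-- Forced membership in a moved name. -/
theorem fmem_mv_iff {X X' : C} {f : X ⟶ X'} {a : LN C X} {b : LN C X'} :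
    fmem b (mv f a) ↔ ∀ (Y : C) (f₁ : X' ⟶ Y), ∃ (Z : C) (g : Y ⟶ Z) (c : LN C Z),
      El c (mv (f ≫ f₁ ≫ g) a) ∧ feq (mv (f₁ ≫ g) b) c := by
  rw [fmem_iff]
  simp only [mv_comp]

/-- Locality with composites. -/
theorem fmem_local' {X X' : C} {f : X ⟶ X'} {a : LN C X} {b : LN C X'}
    (h : ∀ (Y : C) (f₁ : X' ⟶ Y), ∃ (Z : C) (g : Y ⟶ Z),
      fmem (mv (f₁ ≫ g) b) (mv (f ≫ f₁ ≫ g) a)) : fmem b (mv f a) := by
  refine fmem_local fun Y f₁ => ?_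
  obtain ⟨Z, g, hg⟩ := h Y f₁
  refine ⟨Z, g, ?_⟩
  simpa only [mv_comp] using hg

theorem fmem_mono' {X X' Y : C} {f : X ⟶ X'} (g : X' ⟶ Y) {a : LN C X} {b : LN C X'}
    (h : fmem b (mv f a)) : fmem (mv g b) (mv (f ≫ g) a) := by
  have := fmem_mono g h
  rwa [← mv_comp] at this

theorem fmem_congr_left {X : C} {a a' b : LN C X} (ha : feq a a') (h : fmem a b) : fmem a' b :=
  fmem_congr ha (feq_refl b) h

theorem fmem_congr_right {X : C} {a b b' : LN C X} (hb : feq b b') (h : fmem a b) : fmem a b' :=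
  fmem_congr (feq_refl a) hb h

/-! ### Union -/

/-- The union of a name. -/
def union {X : C} (a : LN C X) : LN C X :=
  build (Σ (Z : C) (q : X ⟶ Z) (e : Ent (mv q a)), Ent e.val) (fun s => s.1) (fun s => s.2.1)
    (fun s => s.2.2.2.val)

theorem union_spec {X Y : C} {a : LN C X} {f : X ⟶ Y} {y z : LN C Y}
    (hy : fmem y (mv f a)) (hz : fmem z y) : fmem z (mv f (union a)) := by
  rw [fmem_mv_iff] at hy ⊢
  intro Y₁ f₁
  obtain ⟨Y₂, f₂, c, hc, hyc⟩ := hy Y₁ f₁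
  have hz2 : fmem (mv (f₁ ≫ f₂) z) c := fmem_congr_right hyc (fmem_mono _ hz)
  obtain ⟨Y₃, f₃, d, hd, hzd⟩ := hz2 Y₂ (𝟙 Y₂)
  rw [mv_id] at hd hzd
  have hc' : El (mv f₃ c) (mv (f ≫ f₁ ≫ f₂ ≫ f₃) a) := by
    have := El_mv f₃ hc
    simpa only [mv_comp] using this
  obtain ⟨e, he⟩ := hc'.exists_ent
  have hd' : El d e.val := by rw [he]; exact hd
  obtain ⟨e', he'⟩ := hd'.exists_ent
  refine ⟨Y₃, f₂ ≫ f₃, d, ?_, ?_⟩
  · refine (El_build _).2 ⟨⟨Y₃, f ≫ f₁ ≫ f₂ ≫ f₃, e, e'⟩, 𝟙 Y₃, ?_, ?_⟩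
    · simp
    · simp [he']
  · simpa only [mv_comp] using hzd

/-! ### Separation -/

/-- A property of names at the extensions of `X` which is monotone, local and congruent. -/
structure Stable (X : C) (P : ∀ {Y : C}, (X ⟶ Y) → LN C Y → Prop) : Prop where
  mono : ∀ {Y Z : C} (f : X ⟶ Y) (g : Y ⟶ Z) (x : LN C Y), P f x → P (f ≫ g) (mv g x)
  loc : ∀ {Y : C} (f : X ⟶ Y) (x : LN C Y),
    (∀ (Z : C) (g : Y ⟶ Z), ∃ (W : C) (h : Z ⟶ W), P (f ≫ g ≫ h) (mv (g ≫ h) x)) → P f x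
  congr : ∀ {Y : C} (f : X ⟶ Y) (x y : LN C Y), feq x y → P f x → P f y

/-- Separation. -/
def sep {X : C} (a : LN C X) (P : ∀ {Y : C}, (X ⟶ Y) → LN C Y → Prop) : LN C X :=
  build (Σ (Z : C) (q : X ⟶ Z), {e : Ent (mv q a) // P q e.val}) (fun s => s.1)
    (fun s => s.2.1) (fun s => s.2.2.1.val)

theorem sep_spec {X : C} (a : LN C X) {P : ∀ {Y : C}, (X ⟶ Y) → LN C Y → Prop}
    (hP : Stable X P) {Y : C} (f : X ⟶ Y) (x : LN C Y) :
    fmem x (mv f (sep a P)) ↔ fmem x (mv f a) ∧ P f x := by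
  constructor
  · intro h
    rw [fmem_mv_iff] at h
    have key : ∀ (Y₁ : C) (f₁ : Y ⟶ Y₁), ∃ (Y₂ : C) (f₂ : Y₁ ⟶ Y₂),
        fmem (mv (f₁ ≫ f₂) x) (mv (f ≫ f₁ ≫ f₂) a) ∧ P (f ≫ f₁ ≫ f₂) (mv (f₁ ≫ f₂) x) := by
      intro Y₁ f₁
      obtain ⟨Y₂, f₂, c, hc, hxc⟩ := h Y₁ f₁
      obtain ⟨s, w, hw, rfl⟩ := (El_build _).1 hc
      refine ⟨Y₂, f₂, ?_, ?_⟩
      · refine fmem_congr_left (feq_symm hxc) ?_
        have h1 := El_mv w s.2.2.1.el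
        rw [← mv_comp] at h1
        have hw' : s.2.1 ≫ w = f ≫ f₁ ≫ f₂ := hw
        rw [hw'] at h1
        exact h1.fmem
      · refine hP.congr _ _ _ (feq_symm hxc) ?_
        have h1 := hP.mono s.2.1 w _ s.2.2.2
        have hw' : s.2.1 ≫ w = f ≫ f₁ ≫ f₂ := hw
        rw [hw'] at h1
        exact h1
    refine ⟨fmem_local' fun Y₁ f₁ => ?_, hP.loc _ _ fun Y₁ f₁ => ?_⟩
    · obtain ⟨Y₂, f₂, h1, _⟩ := key Y₁ f₁
      exact ⟨Y₂, f₂, h1⟩
    · obtain ⟨Y₂, f₂, _, h2⟩ := key Y₁ f₁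
      exact ⟨Y₂, f₂, h2⟩
  · rintro ⟨h1, h2⟩
    rw [fmem_mv_iff] at h1 ⊢
    intro Y₁ f₁
    obtain ⟨Y₂, f₂, c, hc, hxc⟩ := h1 Y₁ f₁
    obtain ⟨e, rfl⟩ := hc.exists_ent
    refine ⟨Y₂, f₂, e.val, ?_, hxc⟩
    refine (El_build _).2 ⟨⟨Y₂, f ≫ f₁ ≫ f₂, e, ?_⟩, 𝟙 Y₂, ?_, ?_⟩
    · exact hP.congr _ _ _ hxc (hP.mono f (f₁ ≫ f₂) x h2)
    · simp
    · simp

/-! ### Power set -/

/-- A canonical name for a subset. -/
def subName {X : C} (a : LN C X) (S : Set (Σ (Z : C) (r : X ⟶ Z), Ent (mv r a))) : LN C X :=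
  build S (fun s => s.1.1) (fun s => s.1.2.1) (fun s => s.1.2.2.val)

/-- The power set of a name. -/
def power {X : C} (a : LN C X) : LN C X :=
  build (Σ (Z : C) (q : X ⟶ Z), Set (Σ (Z' : C) (r : Z ⟶ Z'), Ent (mv r (mv q a))))
    (fun s => s.1) (fun s => s.2.1) (fun s => subName (mv s.2.1 a) s.2.2)

/-- Every forced subset is forced equal to a canonical one. -/
theorem feq_subName {X : C} (a z : LN C X)
    (h : ∀ (Z : C) (g : X ⟶ Z) (w : LN C Z), fmem w (mv g z) → fmem w (mv g a)) :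
    feq z (subName a {s | fmem s.2.2.val (mv s.2.1 z)}) := by
  refine feq_of_ext fun Z g c => ?_
  constructor
  · intro hc
    have hca := h Z g c hc
    rw [fmem_mv_iff] at hca ⊢
    intro Y₁ f₁
    obtain ⟨Y₂, f₂, d, hd, hcd⟩ := hca Y₁ f₁
    obtain ⟨e, rfl⟩ := hd.exists_ent
    refine ⟨Y₂, f₂, e.val, ?_, hcd⟩
    refine (El_build _).2 ⟨⟨⟨Y₂, g ≫ f₁ ≫ f₂, e⟩, ?_⟩, 𝟙 Y₂, ?_, ?_⟩
    · show fmem e.val (mv (g ≫ f₁ ≫ f₂) z)
      exact fmem_congr_left hcd (fmem_mono' (f₁ ≫ f₂) hc)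
    · simp
    · simp
  · intro hc
    rw [fmem_mv_iff] at hc
    refine fmem_local' fun Y₁ f₁ => ?_
    obtain ⟨Y₂, f₂, d, hd, hcd⟩ := hc Y₁ f₁
    obtain ⟨⟨s, hs⟩, w, hw, rfl⟩ := (El_build _).1 hd
    refine ⟨Y₂, f₂, fmem_congr_left (feq_symm hcd) ?_⟩
    have h1 : fmem (mv w s.2.2.val) (mv (s.2.1 ≫ w) z) := fmem_mono' w hs
    have hw' : s.2.1 ≫ w = g ≫ f₁ ≫ f₂ := hw
    rw [hw'] at h1
    exact h1

theorem power_spec {X Y : C} {a : LN C X} {f : X ⟶ Y} {z : LN C Y}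
    (h : ∀ (Z : C) (g : Y ⟶ Z) (w : LN C Z), fmem w (mv g z) → fmem w (mv g (mv f a))) :
    fmem z (mv f (power a)) := by
  have h1 := feq_subName (mv f a) z h
  refine fmem_congr_left (feq_symm h1) (El.fmem ?_)
  refine (El_build _).2 ⟨⟨Y, f, {s | fmem s.2.2.val (mv s.2.1 z)}⟩, 𝟙 Y, ?_, ?_⟩
  · simp
  · simp

/-! ### Collection -/

/-- Collection. -/
noncomputable def coll {X : C} (a : LN C X)
    (P : ∀ {Y : C}, (X ⟶ Y) → LN C Y → LN C Y → Prop) : LN C X :=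
  build (Σ (Z : C) (q : X ⟶ Z), {e : Ent (mv q a) // ∃ y, P q e.val y}) (fun s => s.1)
    (fun s => s.2.1) (fun s => s.2.2.2.choose)

theorem coll_spec {X : C} (a : LN C X)
    {P : ∀ {Y : C}, (X ⟶ Y) → LN C Y → LN C Y → Prop}
    (congr : ∀ {Y : C} (f : X ⟶ Y) (x x' y : LN C Y), feq x x' → P f x y → P f x' y)
    (h : ∀ (Y : C) (f : X ⟶ Y) (x : LN C Y), fmem x (mv f a) →
      ∃ (Z : C) (g : Y ⟶ Z) (y : LN C Z), P (f ≫ g) (mv g x) y)
    {Y : C} (f : X ⟶ Y) (x : LN C Y) (hx : fmem x (mv f a)) :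
    ∃ (Z : C) (g : Y ⟶ Z) (y : LN C Z), fmem y (mv (f ≫ g) (coll a P)) ∧
      P (f ≫ g) (mv g x) y := by
  obtain ⟨Y₂, f₂, c, hc, hxc⟩ := fmem_mv_iff.1 hx Y (𝟙 Y)
  rw [Category.id_comp] at hc hxc
  obtain ⟨W, g, y, hy⟩ := h Y₂ (f ≫ f₂) c hc.fmem
  have hc' : El (mv g c) (mv ((f ≫ f₂) ≫ g) a) := by
    have := El_mv g hc
    rwa [← mv_comp] at this
  obtain ⟨e, he⟩ := hc'.exists_ent
  have hex : ∃ y, P ((f ≫ f₂) ≫ g) e.val y := ⟨y, by rw [he]; exact hy⟩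
  refine ⟨W, f₂ ≫ g, hex.choose, ?_, ?_⟩
  · refine El.fmem ((El_build _).2 ⟨⟨W, (f ≫ f₂) ≫ g, e, hex⟩, 𝟙 W, ?_, ?_⟩)
    · simp
    · simp
  · have h1 := hex.choose_spec
    generalize hex.choose = y' at h1
    rw [he, Category.assoc] at h1
    refine congr _ _ _ _ ?_ h1
    have := feq_symm (feq_mono g hxc)
    rwa [← mv_comp] at this

/-! ### The exact forms used by the assembly -/

theorem exists_union {X : C} (a : LN C X) : ∃ u : LN C X, ∀ (Y : C) (f : X ⟶ Y) (y z : LN C Y),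
    fmem y (mv f a) → fmem z y → fmem z (mv f u) :=
  ⟨union a, fun _ _ _ _ hy hz => union_spec hy hz⟩

theorem exists_power {X : C} (a : LN C X) : ∃ p : LN C X, ∀ (Y : C) (f : X ⟶ Y) (z : LN C Y),
    (∀ (Z : C) (g : Y ⟶ Z) (w : LN C Z), fmem w (mv g z) → fmem w (mv g (mv f a))) →
      fmem z (mv f p) :=
  ⟨power a, fun _ _ _ h => power_spec h⟩

theorem exists_sep {X : C} (a : LN C X) (P : ∀ Y : C, (X ⟶ Y) → LN C Y → Prop)
    (mono : ∀ (Y : C) (f : X ⟶ Y) (Z : C) (g : Y ⟶ Z) (c : LN C Y),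
      P Y f c → P Z (f ≫ g) (mv g c))
    (loc : ∀ (Y : C) (f : X ⟶ Y) (c : LN C Y),
      (∀ (Z : C) (g : Y ⟶ Z), ∃ (W : C) (h : Z ⟶ W), P W ((f ≫ g) ≫ h) (mv h (mv g c))) →
        P Y f c)
    (congr : ∀ (Y : C) (f : X ⟶ Y) (c d : LN C Y), feq c d → P Y f c → P Y f d) :
    ∃ b : LN C X, ∀ (Y : C) (f : X ⟶ Y) (c : LN C Y),
      fmem c (mv f b) ↔ fmem c (mv f a) ∧ P Y f c := by
  have hP : Stable X (fun {Y} f c => P Y f c) :=
    { mono := fun f g x h => mono _ f _ g x h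
      loc := fun f x h => loc _ f x fun Z g => by
        obtain ⟨W, k, hk⟩ := h Z g
        refine ⟨W, k, ?_⟩
        rw [Category.assoc, ← mv_comp]
        exact hk
      congr := fun f x y h => congr _ f x y h }
  exact ⟨sep a (fun {Y} f c => P Y f c), fun Y f c => sep_spec a hP f c⟩

theorem exists_coll {X : C} (a : LN C X) (P : ∀ Y : C, (X ⟶ Y) → LN C Y → LN C Y → Prop)
    (congr : ∀ (Y : C) (f : X ⟶ Y) (x x' y : LN C Y), feq x x' → P Y f x y → P Y f x' y)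
    (h : ∀ (Y : C) (f : X ⟶ Y) (x : LN C Y), fmem x (mv f a) →
      ∃ (Z : C) (g : Y ⟶ Z) (y : LN C Z), P Z (f ≫ g) (mv g x) y) :
    ∃ b : LN C X, ∀ (Y : C) (f : X ⟶ Y) (x : LN C Y), fmem x (mv f a) →
      ∃ (Z : C) (g : Y ⟶ Z) (y : LN C Z), fmem y (mv (f ≫ g) b) ∧ P Z (f ≫ g) (mv g x) y :=
  ⟨coll a (fun {Y} f x y => P Y f x y), fun _ f x hx =>
    coll_spec a (P := fun {Y} f x y => P Y f x y) (fun f x x' y => congr _ f x x' y)
      (fun Y f x => h Y f x) f x hx⟩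

end LN

end

end Vale.Agent.P323.F
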