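import Vale.Agent.P323.F.Valid
import Vale.Agent.P323.F.ZFb

/-!
Foundation, pairing and infinity for the names over a category, and all shallow axioms together.
-/

namespace Vale.Agent.P323.F

open CategoryTheory

universe u

section
variable {C : Type u} [Category.{u} C]

namespace LN

/-! ### Foundation -/

theorem exists_found {X : C} (a b : LN C X) (hb : fmem b a) :
    ∃ (Y : C) (f : X ⟶ Y) (c : LN C Y), fmem c (mv f a) ∧
      ∀ (Z : C) (g : Y ⟶ Z) (z : LN C Z), fmem z (mv g (mv f a)) → ¬ fmem z (mv g c) := by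
  by_contra hcon
  have hcon' : ∀ (Y : C) (f : X ⟶ Y) (c : LN C Y), fmem c (mv f a) →
      ∃ (Z : C) (g : Y ⟶ Z) (z : LN C Z), fmem z (mv g (mv f a)) ∧ fmem z (mv g c) := by
    intro Y f c hc
    by_contra h
    refine hcon ⟨Y, f, c, hc, fun Z g z h1 h2 => h ⟨Z, g, z, h1, h2⟩⟩
  have key : ∀ {Y : C} (c : LN C Y), ∀ f : X ⟶ Y, ¬ fmem c (mv f a) := by
    intro Y c
    refine ind (P := fun {Y} c => ∀ f : X ⟶ Y, ¬ fmem c (mv f a)) ?_ c
    intro Y c ih f hc
    obtain ⟨Z, g, z, hza, hzc⟩ := hcon' Y f c hc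
    obtain ⟨W, k, d, hd, hzd⟩ := fmem_mv_iff.1 hzc Z (𝟙 Z)
    rw [Category.id_comp] at hd hzd
    refine ih W (g ≫ k) d hd (f ≫ g ≫ k) ?_
    refine fmem_congr_left hzd ?_
    have := fmem_mono k hza
    simpa only [mv_comp] using this
  refine key b (𝟙 X) ?_
  rwa [mv_id]

/-! ### Pairing -/

/-- A name containing two given names. -/
def pairN {X : C} (a b : LN C X) : LN C X :=
  build (ULift.{u} Bool) (fun _ => X) (fun _ => 𝟙 X) (fun i => cond i.down a b)

theorem El_pairN {X : C} (a b c : LN C X) : El c (pairN a b) ↔ c = a ∨ c = b := by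
  have h := El_build (𝟙 X) (I := ULift.{u} Bool) (Z := fun _ => X) (p := fun _ => 𝟙 X)
    (x := fun i => cond i.down a b) (c := c)
  rw [mv_id] at h
  show El c (build (ULift.{u} Bool) (fun _ => X) (fun _ => 𝟙 X) (fun i => cond i.down a b)) ↔ _
  rw [h]
  constructor
  · rintro ⟨⟨i⟩, w, hw, rfl⟩
    have hw' : w = 𝟙 X := by simpa using hw
    subst hw'
    cases i
    · right; simp
    · left; simp
  · rintro (rfl | rfl)
    · exact ⟨⟨true⟩, 𝟙 X, by simp, by simp⟩
    · exact ⟨⟨false⟩, 𝟙 X, by simp, by simp⟩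

theorem exists_pair {X : C} (a b : LN C X) : ∃ p : LN C X, fmem a p ∧ fmem b p :=
  ⟨pairN a b, ((El_pairN a b a).2 (Or.inl rfl)).fmem, ((El_pairN a b b).2 (Or.inr rfl)).fmem⟩

/-! ### Infinity -/

theorem not_fmem_empty {X Y : C} (f : X ⟶ Y) (z : LN C Y) : ¬ fmem z (mv f (empty X)) := by
  intro h
  obtain ⟨Z, g, c, ⟨i, _⟩, _⟩ := h Y (𝟙 Y)
  exact PEmpty.elim i

/-- `a ∪ {a}`. -/
def succN {X : C} (a : LN C X) : LN C X :=
  build (Option (Σ (Z : C) (q : X ⟶ Z), Ent (mv q a)))
    (fun o => match o with | none => X | some s => s.1)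
    (fun o => match o with | none => 𝟙 X | some s => s.2.1)
    (fun o => match o with | none => a | some s => s.2.2.val)

theorem El_succN {X Y : C} (f : X ⟶ Y) (a : LN C X) (c : LN C Y) :
    El c (mv f (succN a)) ↔ c = mv f a ∨ El c (mv f a) := by
  rw [succN, El_build]
  constructor
  · rintro ⟨o, w, hw, rfl⟩
    cases o with
    | none =>
      left
      have hw' : w = f := by simpa using hw
      subst hw'
      rfl
    | some s =>
      right
      have hw' : s.2.1 ≫ w = f := hw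
      have h1 := El_mv w s.2.2.el
      rw [← mv_comp, hw'] at h1
      exact h1
  · rintro (rfl | h)
    · exact ⟨none, f, by simp, rfl⟩
    · obtain ⟨e, rfl⟩ := h.exists_ent
      exact ⟨some ⟨Y, f, e⟩, 𝟙 Y, by simp, by simp⟩

theorem fmem_succN {X Y : C} (f : X ⟶ Y) (a : LN C X) (z : LN C Y) :
    fmem z (mv f (succN a)) ↔ ∀ (V : C) (k : Y ⟶ V), ∃ (W : C) (l : V ⟶ W),
      fmem (mv l (mv k z)) (mv l (mv k (mv f a))) ∨ feq (mv l (mv k z)) (mv l (mv k (mv f a))) := by
  constructor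
  · intro h V k
    obtain ⟨W, l, c, hc, hzc⟩ := fmem_mv_iff.1 h V k
    refine ⟨W, l, ?_⟩
    simp only [← mv_comp]
    rcases (El_succN _ _ _).1 hc with rfl | hc
    · right
      simpa using hzc
    · left
      refine fmem_congr_left (feq_symm hzc) ?_
      simpa using hc.fmem
  · intro h
    refine fmem_local' fun V k => ?_
    obtain ⟨W, l, hl⟩ := h V k
    refine ⟨W, l, ?_⟩
    simp only [← mv_comp] at hl
    rcases hl with hl | hl
    · rw [Category.assoc] at hl
      rw [fmem_mv_iff] at hl ⊢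
      intro V' k'
      obtain ⟨W', l', c, hc, hzc⟩ := hl V' k'
      exact ⟨W', l', c, (El_succN _ _ _).2 (Or.inr hc), hzc⟩
    · rw [Category.assoc] at hl
      exact fmem_congr_left (feq_symm hl) ((El_succN _ _ _).2 (Or.inl rfl)).fmem

/-- The standard names of the natural numbers. -/
def natN (X : C) : ℕ → LN C X
  | 0 => empty X
  | n + 1 => succN (natN X n)

/-- The name of the set of natural numbers. -/
def omegaN (X : C) : LN C X :=
  build (ULift.{u} ℕ) (fun _ => X) (fun _ => 𝟙 X) (fun i => natN X i.down)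

theorem El_omegaN {X Y : C} (f : X ⟶ Y) (c : LN C Y) :
    El c (mv f (omegaN X)) ↔ ∃ n, c = mv f (natN X n) := by
  rw [omegaN, El_build]
  constructor
  · rintro ⟨i, w, hw, rfl⟩
    have hw' : w = f := by simpa using hw
    subst hw'
    exact ⟨i.down, rfl⟩
  · rintro ⟨n, rfl⟩
    exact ⟨⟨n⟩, f, by simp, rfl⟩

theorem exists_inf (X : C) : ∃ w e : LN C X, fmem e w ∧
    (∀ (Y : C) (f : X ⟶ Y) (z : LN C Y), ¬ fmem z (mv f e)) ∧
    ∀ (Y : C) (f : X ⟶ Y) (x : LN C Y), fmem x (mv f w) →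
      ∃ (Z : C) (g : Y ⟶ Z) (s : LN C Z), fmem s (mv g (mv f w)) ∧
        ∀ (V : C) (h : Z ⟶ V) (z : LN C V), fmem z (mv h s) ↔
          ∀ (V' : C) (k : V ⟶ V'), ∃ (V'' : C) (l : V' ⟶ V''),
            fmem (mv l (mv k z)) (mv l (mv k (mv h (mv g x)))) ∨
              feq (mv l (mv k z)) (mv l (mv k (mv h (mv g x)))) := by
  refine ⟨omegaN X, empty X, ?_, fun Y f z => not_fmem_empty f z, ?_⟩
  · have h := (El_omegaN (𝟙 X) (empty X)).2 ⟨0, by rw [mv_id]; rfl⟩
    rw [mv_id] at h
    exact h.fmem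
  · intro Y f x hx
    obtain ⟨Z, g, c, hc, hxc⟩ := fmem_mv_iff.1 hx Y (𝟙 Y)
    rw [Category.id_comp] at hc hxc
    obtain ⟨n, rfl⟩ := (El_omegaN _ _).1 hc
    refine ⟨Z, g, mv (f ≫ g) (natN X (n + 1)), ?_, ?_⟩
    · rw [← mv_comp]
      exact ((El_omegaN _ _).2 ⟨n + 1, rfl⟩).fmem
    · intro V h z
      have h1 : ∀ (V' : C) (k : V ⟶ V') (V'' : C) (l : V' ⟶ V''),
          feq (mv l (mv k (mv h (mv g x)))) (mv l (mv k (mv h (mv (f ≫ g) (natN X n))))) :=
        fun V' k V'' l => feq_mono l (feq_mono k (feq_mono h hxc))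
      rw [← mv_comp]
      show fmem z (mv ((f ≫ g) ≫ h) (succN (natN X n))) ↔ _
      rw [fmem_succN]
      refine forall_congr' fun V' => forall_congr' fun k => exists_congr fun V'' =>
        exists_congr fun l => or_congr ?_ ?_
      · rw [mv_comp (f ≫ g) h]
        exact ⟨fun hh => fmem_congr_right (feq_symm (h1 V' k V'' l)) hh,
          fun hh => fmem_congr_right (h1 V' k V'' l) hh⟩
      · rw [mv_comp (f ≫ g) h]
        exact ⟨fun hh => feq_trans hh (feq_symm (h1 V' k V'' l)),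
          fun hh => feq_trans hh (h1 V' k V'' l)⟩

end LN

/-- All axioms in shallow form for the names over `C`. -/
theorem zfNames (C : Type u) [Category.{u} C] : ZFNames (nameAtomic C) where
  ext _ _ h := LN.feq_of_ext h
  found a b h := LN.exists_found a b h
  pair a b := LN.exists_pair a b
  union a := LN.exists_union a
  power a := LN.exists_power a
  inf X := LN.exists_inf X
  sep a P mono loc congr := LN.exists_sep a P (fun Y f Z g c h => mono Y f c Z g h) loc congr
  coll a P _ congr h := LN.exists_coll a P (fun Y f x x' y => congr Y f x x' y) h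

end

end Vale.Agent.P323.F
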