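import Vale.Agent.P323.F.OpPair
import Vale.Agent.P323.F.ZFc
import Vale.Agent.P323.F.End

/-!
From the shallow forcing statements to a model of ZF + PP + not AC.
-/

namespace Vale.Agent.P323.F

open CategoryTheory Vale.Agent.P323.Z

universe u

/-- If PP is forced and AC is forced nowhere, then there is a model of ZF + PP + not AC. -/
theorem exists_pp_not_ac {C : Type u} [Category.{u} C] (X0 : C) (hPP : PPForced C)
    (hAC : NoAC C) : ∃ (M : Type) (E : M → M → Prop), IsZFModel E ∧ PP E ∧ ¬ AC E := by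
  obtain ⟨M, E, -, h1, -⟩ := exists_model' (A := atomicOf C) X0
  have hZ : ZFNames (atomicOf C) := zfNames C
  refine ⟨M, E, isZFModel_of_valid hZ h1, ?_, ?_⟩
  · exact (Fml.sat_ppF E ![]).1 (h1 0 Fml.ppF (valid_ppF (opPair C) hPP) ![])
  · have := h1 0 (Fml.neg Fml.acF) (valid_neg_acF (opPair C) hAC) ![]
    rw [Fml.sat_neg, Fml.sat_acF] at this
    exact this

end Vale.Agent.P323.F
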