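import Vale.Agent.P323.F.Valid
import Vale.Agent.P323.Z.Sentences
import Vale.Agent.P323.Z.NameTheory

/-!
# From shallow forcing statements to forced sentences

For a `NameTheory C` whose `op x y` is forced to be the Kuratowski pair (`OpPair C`):
* `forces_ppF : PPForced C → Forces ppF X xs` for all `X`;
* `not_forces_acF : NoAC C → ¬ Forces acF X xs` for all `X`;
* `valid_ppF`, `valid_neg_acF`: the same with `Valid`.
-/

namespace Vale.Agent.P323.F

open CategoryTheory Vale.Agent.P323.Z Vale.Agent.P323.Z.Fml Vale.Agent.P323.Z.NameTheory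

universe u

/-- The atomic forcing data of a name theory. -/
abbrev atomicOf (C : Type u) [Category.{u} C] [NameTheory C] : Atomic.{u, u, u + 1} C where
  N := NameTheory.N
  mv := NameTheory.mv
  mv_id := NameTheory.mv_id
  mv_comp f g a := (NameTheory.mv_mv f g a).symm
  ne X := ⟨NameTheory.ck 0 X⟩
  feq := NameTheory.feq
  fmem := NameTheory.fmem
  feq_refl := NameTheory.feq_refl
  feq_symm := NameTheory.feq_symm
  feq_trans := NameTheory.feq_trans
  feq_mono := NameTheory.feq_mv
  fmem_mono := NameTheory.fmem_mv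
  feq_local h := NameTheory.feq_loc fun {Y} k => by
    obtain ⟨Z, g, hg⟩ := h Y k
    refine ⟨Z, g, ?_⟩
    rwa [NameTheory.mv_mv, NameTheory.mv_mv] at hg
  fmem_local h := NameTheory.fmem_loc fun {Y} k => by
    obtain ⟨Z, g, hg⟩ := h Y k
    refine ⟨Z, g, ?_⟩
    rwa [NameTheory.mv_mv, NameTheory.mv_mv] at hg
  fmem_congr := NameTheory.fmem_congr

variable {C : Type u} [Category.{u} C] [NameTheory C]

/-- `p` is forced to be the unordered pair of `x` and `y`. -/
def FUPair {X : C} (p x y : N X) : Prop :=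
  ∀ (Y : C) (f : X ⟶ Y) (z : N Y), fmem z (mv f p) ↔
    ∀ (Z : C) (g : Y ⟶ Z), ∃ (W : C) (h : Z ⟶ W),
      feq (mv (g ≫ h) z) (mv (f ≫ g ≫ h) x) ∨ feq (mv (g ≫ h) z) (mv (f ≫ g ≫ h) y)

/-- `p` is forced to be the ordered pair of `x` and `y`. -/
def FOPair {X : C} (p x y : N X) : Prop :=
  ∀ (Y : C) (f : X ⟶ Y), ∃ (Z : C) (g : Y ⟶ Z) (s t : N Z),
    FUPair s (mv (f ≫ g) x) (mv (f ≫ g) x) ∧ FUPair t (mv (f ≫ g) x) (mv (f ≫ g) y) ∧
      FUPair (mv (f ≫ g) p) s t

theorem forces_upairF {n : ℕ} (p x y : Fin n) {X : C} (xs : Fin n → N X) :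
    Forces (atomicOf C) (upairF p x y) X xs ↔ FUPair (xs p) (xs x) (xs y) := by
  rw [upairF, forces_all]
  simp only [forces_iff, forces_or, forces_mem, forces_eq, Fin.snoc_last, Fin.snoc_castSucc,
    mv_mv, Category.assoc]
  constructor
  · intro h Y f z
    have := h Y f z Y (𝟙 Y)
    simpa only [mv_id, Category.id_comp, Category.comp_id] using this
  · intro h Y f z Y' f'
    have := h Y' (f ≫ f') (mv f' z)
    simpa only [mv_mv, Category.assoc] using this

theorem FUPair.mv {X Y : C} (k : X ⟶ Y) {p x y : N X} (h : FUPair p x y) :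
    FUPair (mv k p) (mv k x) (mv k y) := by
  intro Z f z
  simpa only [mv_mv, Category.assoc] using h Z (k ≫ f) z

theorem FUPair.congr {X : C} {p x y x' y' : N X} (h : FUPair p x y) (hx : feq x x')
    (hy : feq y y') : FUPair p x' y' := by
  intro Y f z
  rw [h Y f z]
  refine forall_congr' fun Z => forall_congr' fun g => exists_congr fun W =>
    exists_congr fun k => ?_
  have h1 := feq_mv (f ≫ g ≫ k) hx
  have h2 := feq_mv (f ≫ g ≫ k) hy
  exact or_congr ⟨fun h => feq_trans h h1, fun h => feq_trans h (feq_symm h1)⟩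
    ⟨fun h => feq_trans h h2, fun h => feq_trans h (feq_symm h2)⟩

theorem FUPair.unique {X : C} {p p' x y : N X} (h : FUPair p x y) (h' : FUPair p' x y) :
    feq p p' :=
  feq_ext fun {Y} k ρ => by rw [h Y k ρ, h' Y k ρ]

theorem FUPair.congr_left {X : C} {p p' x y : N X} (h : FUPair p x y) (hp : feq p p') :
    FUPair p' x y := by
  intro Y f z
  rw [← h Y f z]
  have h1 := feq_mv f hp
  exact ⟨fun h => fmem_congr (feq_refl z) (feq_symm h1) h,
    fun h => fmem_congr (feq_refl z) h1 h⟩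

theorem forces_opairF {n : ℕ} (p x y : Fin n) {X : C} (xs : Fin n → N X) :
    Forces (atomicOf C) (opairF p x y) X xs ↔ FOPair (xs p) (xs x) (xs y) := by
  rw [opairF, forces_ex]
  simp only [forces_ex, forces_and, forces_upairF, Fin.snoc_last, Fin.snoc_castSucc,
    mv_mv, Category.assoc]
  constructor
  · intro h Y f
    obtain ⟨Z, g, s, hs⟩ := h Y f
    obtain ⟨W, k, t, h1, h2, h3⟩ := hs Z (𝟙 Z)
    simp only [Category.id_comp] at h1 h2 h3
    exact ⟨W, g ≫ k, _, t, h1, h2, h3⟩
  · intro h Y f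
    obtain ⟨Z, g, s, t, h1, h2, h3⟩ := h Y f
    refine ⟨Z, g, s, fun W k => ⟨W, 𝟙 W, mv k t, ?_, ?_, ?_⟩⟩
    · have := h1.mv k
      simpa only [mv_mv, Category.assoc, Category.comp_id] using this
    · have := h2.mv k
      simpa only [mv_mv, Category.assoc, Category.comp_id] using this
    · have := h3.mv k
      simpa only [mv_mv, Category.assoc, Category.comp_id] using this

theorem FOPair.mv {X Y : C} (k : X ⟶ Y) {p x y : N X} (h : FOPair p x y) :
    FOPair (mv k p) (mv k x) (mv k y) := by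
  intro Z f
  obtain ⟨W, g, s, t, h1, h2, h3⟩ := h Z (k ≫ f)
  refine ⟨W, g, s, t, ?_⟩
  simp only [mv_mv, Category.assoc] at *
  exact ⟨h1, h2, h3⟩

theorem FOPair.unique {X : C} {p p' x y : N X} (h : FOPair p x y) (h' : FOPair p' x y) :
    feq p p' := by
  refine feq_loc fun {Y} k => ?_
  obtain ⟨Z, g, s, t, h1, h2, h3⟩ := h Y k
  obtain ⟨W, l, s', t', h1', h2', h3'⟩ := h' Z (k ≫ g)
  refine ⟨W, g ≫ l, ?_⟩
  have e1 : feq (NameTheory.mv l s) s' := by
    refine FUPair.unique (h1.mv l) ?_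
    simpa only [mv_mv, Category.assoc] using h1'
  have e2 : feq (NameTheory.mv l t) t' := by
    refine FUPair.unique (h2.mv l) ?_
    simpa only [mv_mv, Category.assoc] using h2'
  have := (h3.mv l).congr e1 e2
  simp only [mv_mv, Category.assoc] at this h3'
  exact this.unique h3'

/-- `op x y` is forced to be the Kuratowski pair. -/
def OpPair (C : Type u) [Category.{u} C] [NameTheory C] : Prop :=
  ∀ {X : C} (x y : N X), FOPair (op x y) x y

/-- sufficient for `OpPair`: `op` is built from names of unordered pairs -/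
theorem opPair_of_up (up : ∀ {X : C}, N X → N X → N X)
    (hup : ∀ {X : C} (x y : N X), FUPair (up x y) x y)
    (hop : ∀ {X : C} (x y : N X), feq (op x y) (up (up x x) (up x y))) : OpPair C := by
  intro X x y Y f
  refine ⟨Y, 𝟙 Y, mv f (up x x), mv f (up x y), ?_, ?_, ?_⟩
  · simpa only [Category.comp_id] using (hup x x).mv f
  · simpa only [Category.comp_id] using (hup x y).mv f
  · have := ((hup (up x x) (up x y)).congr_left (feq_symm (hop x y))).mv f
    simpa only [Category.comp_id] using this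

theorem fopair_iff (H : OpPair C) {X : C} (p x y : N X) : FOPair p x y ↔ feq p (op x y) := by
  constructor
  · intro h
    exact h.unique (H x y)
  · intro h Y f
    obtain ⟨Z, g, s, t, h1, h2, h3⟩ := H x y Y f
    exact ⟨Z, g, s, t, h1, h2, h3.congr_left (feq_mv (f ≫ g) (feq_symm h))⟩

theorem fmem_op_mv {X Y : C} (k : X ⟶ Y) {x y F : N X} (h : fmem (op x y) F) :
    fmem (op (mv k x) (mv k y)) (mv k F) :=
  fmem_congr (op_mv k x y) (feq_refl _) (fmem_mv k h)

theorem forces_pairMemF (H : OpPair C) {n : ℕ} (x y f : Fin n) {X : C} (xs : Fin n → N X) :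
    Forces (atomicOf C) (pairMemF x y f) X xs ↔ fmem (op (xs x) (xs y)) (xs f) := by
  rw [pairMemF, forces_ex]
  simp only [forces_and, forces_opairF, forces_mem, Fin.snoc_last, Fin.snoc_castSucc,
    mv_mv, fopair_iff H]
  constructor
  · intro h
    refine fmem_loc fun {Y} k => ?_
    obtain ⟨Z, g, p, hp, hm⟩ := h Y k
    refine ⟨Z, g, ?_⟩
    refine fmem_congr ?_ (feq_refl _) hm
    exact feq_trans hp (feq_symm (op_mv _ _ _))
  · intro h Y k
    refine ⟨Y, 𝟙 Y, op (mv k (xs x)) (mv k (xs y)), ?_, ?_⟩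
    · simpa only [Category.comp_id] using feq_refl _
    · simpa only [Category.comp_id] using fmem_op_mv k h

/-- The shallow form of `function`. -/
theorem forces_functionF (H : OpPair C) {n : ℕ} (f A B : Fin n) {X : C} (xs : Fin n → N X) :
    Forces (atomicOf C) (functionF f A B) X xs ↔ FFun (xs f) (xs A) (xs B) := by
  rw [functionF, forces_and, forces_all, forces_all]
  simp only [forces_imp, forces_ex, forces_and, forces_opairF, forces_mem, forces_all,
    forces_pairMemF H, forces_eq, Fin.snoc_last, Fin.snoc_castSucc, mv_mv, fopair_iff H,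
    Category.assoc]
  constructor
  · rintro ⟨h1, h2⟩
    have sub : ∀ {W : C} (v : X ⟶ W) (p : N W), fmem p (mv v (xs f)) →
        ∃ (W' : C) (k : W ⟶ W') (x y : N W'), fmem x (mv (v ≫ k) (xs A)) ∧
          fmem y (mv (v ≫ k) (xs B)) ∧ feq (mv k p) (op x y) := by
      intro W v p hp
      obtain ⟨W₁, k₁, x, hx⟩ := h1 W v p W (𝟙 W) (by simpa only [mv_id, Category.comp_id] using hp)
        W (𝟙 W)
      obtain ⟨W₂, k₂, y, e1, e2, e3⟩ := hx W₁ (𝟙 W₁)
      simp only [Category.id_comp] at e1 e2 e3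
      exact ⟨W₂, k₁ ≫ k₂, _, y, e1, e2, e3⟩
    have total : ∀ {W : C} (v : X ⟶ W) (x : N W), fmem x (mv v (xs A)) →
        ∃ (W' : C) (k : W ⟶ W') (y : N W'), fmem (op (mv k x) y) (mv (v ≫ k) (xs f)) ∧
          ∀ (y' : N W'), fmem (op (mv k x) y') (mv (v ≫ k) (xs f)) → feq y' y := by
      intro W v x hx
      obtain ⟨W₁, k₁, y, e1, e2⟩ := h2 W v x W (𝟙 W)
        (by simpa only [mv_id, Category.comp_id] using hx) W (𝟙 W)
      simp only [Category.id_comp] at e1 e2
      refine ⟨W₁, k₁, y, e1, fun y' hy' => ?_⟩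
      have := e2 W₁ (𝟙 W₁) y' W₁ (𝟙 W₁)
      simp only [Category.comp_id, mv_id] at this
      exact this hy'
    refine ⟨sub, ?_, ?_⟩
    · intro W v x y y' hy hy'
      refine feq_loc fun {W₁} k₁ => ?_
      obtain ⟨W₂, k₂, x₂, y₂, hx₂, -, he⟩ := sub (v ≫ k₁) _
        (by simpa only [mv_mv] using fmem_op_mv k₁ hy)
      have hex : feq x₂ (mv (k₁ ≫ k₂) x) := by
        have h3 : feq (op (mv (k₁ ≫ k₂) x) (mv (k₁ ≫ k₂) y)) (op x₂ y₂) := by
          refine feq_trans ?_ he
          have := feq_symm (op_mv k₂ (mv k₁ x) (mv k₁ y))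
          simpa only [mv_mv] using this
        exact feq_symm (op_feq.1 h3).1
      have hxA : fmem (mv (k₁ ≫ k₂) x) (mv (v ≫ k₁ ≫ k₂) (xs A)) := by
        refine fmem_congr hex (feq_refl _) ?_
        simpa only [Category.assoc] using hx₂
      obtain ⟨W₃, k₃, y₃, -, hu⟩ := total _ _ hxA
      refine ⟨W₃, k₂ ≫ k₃, ?_⟩
      have g1 := hu (mv (k₁ ≫ k₂ ≫ k₃) y)
        (by simpa only [mv_mv, Category.assoc] using fmem_op_mv (k₁ ≫ k₂ ≫ k₃) hy)
      have g2 := hu (mv (k₁ ≫ k₂ ≫ k₃) y')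
        (by simpa only [mv_mv, Category.assoc] using fmem_op_mv (k₁ ≫ k₂ ≫ k₃) hy')
      exact feq_trans g1 (feq_symm g2)
    · intro W v x hx
      obtain ⟨W', k, y, hy, -⟩ := total v x hx
      exact ⟨W', k, y, hy⟩
  · intro h
    constructor
    · intro Y v p Y₁ v₁ hp Y₂ v₂
      have hp' : fmem (mv (v₁ ≫ v₂) p) (mv (v ≫ v₁ ≫ v₂) (xs f)) := by
        simpa only [mv_mv, Category.assoc] using fmem_mv v₂ hp
      obtain ⟨W, k, x, y, hx, hy, he⟩ := h.sub _ _ hp'
      refine ⟨W, k, x, fun V l => ⟨V, 𝟙 V, mv l y, ?_, ?_, ?_⟩⟩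
      · simpa only [mv_mv, Category.assoc, Category.comp_id] using fmem_mv l hx
      · simpa only [mv_mv, Category.assoc, Category.comp_id] using fmem_mv l hy
      · have := feq_trans (feq_mv l he) (op_mv l x y)
        simpa only [mv_mv, Category.assoc, Category.comp_id] using this
    · intro Y v x Y₁ v₁ hx Y₂ v₂
      have hx' : fmem (mv (v₁ ≫ v₂) x) (mv (v ≫ v₁ ≫ v₂) (xs A)) := by
        simpa only [mv_mv, Category.assoc] using fmem_mv v₂ hx
      obtain ⟨W, k, y, hy⟩ := h.total _ _ hx'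
      refine ⟨W, k, y, ?_, ?_⟩
      · simpa only [mv_mv, Category.assoc] using hy
      · intro V l y' V' l' hy'
        refine h.func _ _ _ _ hy' ?_
        have := fmem_op_mv (l ≫ l') hy
        simpa only [mv_mv, Category.assoc] using this

/-- The shallow form of `surjection`. -/
theorem forces_surjectionF (H : OpPair C) {n : ℕ} (f A B : Fin n) {X : C} (xs : Fin n → N X) :
    Forces (atomicOf C) (surjectionF f A B) X xs ↔
      FFun (xs f) (xs A) (xs B) ∧ FOnto (xs f) (xs B) := by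
  rw [surjectionF, forces_and, forces_functionF H, forces_all]
  simp only [forces_imp, forces_ex, forces_and, forces_mem, forces_pairMemF H, Fin.snoc_last,
    Fin.snoc_castSucc, mv_mv, Category.assoc]
  refine and_congr_right fun hF => ?_
  constructor
  · intro h W v y hy
    obtain ⟨W₁, k₁, x, -, hx⟩ := h W v y W (𝟙 W)
      (by simpa only [mv_id, Category.comp_id] using hy) W (𝟙 W)
    simp only [Category.id_comp] at hx
    exact ⟨W₁, k₁, x, hx⟩
  · intro h Y v y Y₁ v₁ hy Y₂ v₂
    have hy' : fmem (mv (v₁ ≫ v₂) y) (mv (v ≫ v₁ ≫ v₂) (xs B)) := by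
      simpa only [mv_mv, Category.assoc] using fmem_mv v₂ hy
    obtain ⟨W, k, x, hx⟩ := h _ _ hy'
    obtain ⟨W', k', x', y', hx', -, he⟩ := hF.sub _ _ hx
    refine ⟨W', k ≫ k', mv k' x, ?_, ?_⟩
    · have h3 : feq (op (mv k' x) (mv k' (mv k (mv (v₁ ≫ v₂) y)))) (op x' y') :=
        feq_trans (feq_symm (op_mv _ _ _)) he
      have := fmem_congr (feq_symm (op_feq.1 h3).1) (feq_refl _) hx'
      simpa only [mv_mv, Category.assoc] using this
    · have := fmem_op_mv k' hx
      simpa only [mv_mv, Category.assoc] using this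

/-- The shallow form of `injection`. -/
theorem forces_injectionF (H : OpPair C) {n : ℕ} (f A B : Fin n) {X : C} (xs : Fin n → N X) :
    Forces (atomicOf C) (injectionF f A B) X xs ↔
      FFun (xs f) (xs A) (xs B) ∧ FInj (xs f) := by
  rw [injectionF, forces_and, forces_functionF H, forces_all]
  simp only [forces_imp, forces_all, forces_pairMemF H, forces_eq, Fin.snoc_last,
    Fin.snoc_castSucc, mv_mv, Category.assoc]
  refine and_congr_right fun _ => ?_
  constructor
  · intro h W v x x' y hx hx'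
    have := h W v x W (𝟙 W) x' W (𝟙 W) y W (𝟙 W)
    simp only [Category.comp_id, mv_id] at this
    have := this hx W (𝟙 W)
    simp only [Category.comp_id, mv_id] at this
    exact this hx'
  · intro h Y v x Y₁ v₁ x' Y₂ v₂ y Y₃ v₃ hx Y₄ v₄ hx'
    refine h _ _ _ _ ?_ hx'
    have := fmem_op_mv v₄ hx
    simpa only [mv_mv, Category.assoc] using this

/-- If PP is forced in the shallow sense then the sentence `ppF` is forced. -/
theorem forces_ppF (H : OpPair C) (h : PPForced C) (X : C) (xs : Fin 0 → N X) :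
    Forces (atomicOf C) ppF X xs := by
  rw [ppF, forces_all]
  simp only [forces_all, forces_imp, forces_ex, forces_surjectionF H, forces_injectionF H,
    Fin.snoc_last, Fin.snoc_castSucc, mv_mv, Category.assoc]
  intro Y v A Y₁ v₁ B Y₂ v₂ hF Y₃ v₃
  obtain ⟨Y₄, v₄, F, hF₁, hF₂⟩ := hF Y₃ v₃
  obtain ⟨Y₅, v₅, J, hJ₁, hJ₂⟩ := h Y₄ F _ _ hF₁ hF₂
  refine ⟨Y₅, v₄ ≫ v₅, J, ?_, hJ₂⟩
  simpa only [mv_mv, Category.assoc] using hJ₁

/-- If no condition forces AC in the shallow sense then the sentence `acF` is not forced. -/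
theorem not_forces_acF (H : OpPair C) (h : NoAC C) (X : C) (xs : Fin 0 → N X) :
    ¬ Forces (atomicOf C) acF X xs := by
  rw [acF, forces_all]
  simp only [forces_all, forces_imp, forces_ex, forces_and, forces_functionF H,
    forces_pairMemF H, forces_mem, Fin.snoc_last, Fin.snoc_castSucc, mv_mv, Category.assoc]
  intro hac
  obtain ⟨Y, k, A, hA, hno⟩ := h X
  obtain ⟨W, l, c, hc⟩ := hac Y k A Y (𝟙 Y) (by
    intro W v x V v₁ hx W₂ v₂
    simp only [Category.id_comp] at hx
    have hx' : fmem (mv (v₁ ≫ v₂) x) (mv (v ≫ v₁ ≫ v₂) A) := by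
      simpa only [mv_mv, Category.assoc] using fmem_mv v₂ hx
    obtain ⟨W', k', y, hy⟩ := hA _ _ hx'
    refine ⟨W', k', y, ?_⟩
    simpa only [mv_mv, Category.assoc] using hy) Y (𝟙 Y)
  obtain ⟨V, m, U, hU, hch⟩ := hc W (𝟙 W)
  simp only [Category.id_comp] at hU hch
  refine hno (l ≫ m) (mv m c) ⟨?_, ?_⟩
  · intro W₁ v₁ x y y' hy hy'
    exact hU.func v₁ x y y' hy hy'
  · intro W₁ v₁ x hx
    obtain ⟨W₂, v₂, y, hy⟩ := hU.total v₁ x hx
    refine ⟨W₂, v₂, y, hy, ?_⟩
    have := hch W₂ (v₁ ≫ v₂) (mv v₂ x) W₂ (𝟙 W₂) y W₂ (𝟙 W₂)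
    simp only [Category.comp_id, mv_id] at this
    refine this ?_
    simpa only [mv_mv, Category.assoc] using hy

theorem valid_ppF (H : OpPair C) (h : PPForced C) : Valid (atomicOf C) ppF :=
  fun X xs => forces_ppF H h X xs

theorem valid_neg_acF (H : OpPair C) (h : NoAC C) : Valid (atomicOf C) acF.neg :=
  fun _ _ => (forces_neg acF).2 fun _ _ => not_forces_acF H h _ _

end Vale.Agent.P323.F
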