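import Vale.Agent.P323.F.ZFa
import Vale.Agent.P323.Z.NameTheory

/-!
The located names form a name theory.
-/

namespace Vale.Agent.P323.F

open CategoryTheory

universe u

/-- The located names over a category form a name theory. -/
noncomputable instance nameTheory (C : Type u) [Category.{u} C] : Z.NameTheory C where
  N := LN C
  mv := LN.mv
  mv_id := LN.mv_id
  mv_mv k l σ := (LN.mv_comp k l σ).symm
  feq := LN.feq
  fmem := LN.fmem
  feq_refl := LN.feq_refl
  feq_symm := LN.feq_symm
  feq_trans := LN.feq_trans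
  feq_mv := LN.feq_mono
  feq_loc h := LN.feq_local fun Y f => by
    obtain ⟨Z, l, hl⟩ := h f
    exact ⟨Z, l, by simpa only [LN.mv_comp] using hl⟩
  fmem_congr := LN.fmem_congr
  fmem_mv := LN.fmem_mono
  fmem_loc h := LN.fmem_local fun Y f => by
    obtain ⟨Z, l, hl⟩ := h f
    exact ⟨Z, l, by simpa only [LN.mv_comp] using hl⟩
  op := LN.op
  op_mv := LN.op_mv
  op_feq := LN.op_feq
  Ent := LN.Ent
  ent := LN.ent
  ent_mem := LN.ent_mem
  mem_ent := LN.mem_ent
  mkN X _ Z u e := LN.mkN X Z u e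
  fmem_mkN X _ Z u e _ v ρ := LN.fmem_mkN Z u e v ρ
  feq_ext h := LN.feq_of_ext fun _ k c => h k c
  ck := LN.ck
  ck_mv o _ _ k := LN.ck_mv o k
  ck_ne := LN.ck_ne

end Vale.Agent.P323.F
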