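import Vale.Agent.P323.F.Atomic

/-!
Names for forcing over a category `C`.

A core name at `Y` is a small family of entries `Y ⟶ Z i ⟵ B i` with a core name at `B i`.
A located name at `X` is a morphism `B ⟶ X` and a core name at `B`; it is moved along
`X ⟶ X'` by composition.
-/

namespace Vale.Agent.P323.F

open CategoryTheory

universe u

/-- Core names. -/
inductive Nm (C : Type u) [Category.{u} C] : C → Type (u + 1)
  | mk (Y : C) (I : Type u) (Z B : I → C) (u : ∀ i, Y ⟶ Z i) (g : ∀ i, B i ⟶ Z i)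
      (t : ∀ i, Nm C (B i)) : Nm C Y

section
variable {C : Type u} [Category.{u} C]

namespace Nm

/-- the index type of the entries -/
def I : ∀ {Y : C}, Nm C Y → Type u
  | _, .mk _ I _ _ _ _ _ => I

/-- the object at which an entry is a member -/
def Z : ∀ {Y : C} (σ : Nm C Y), σ.I → C
  | _, .mk _ _ Z _ _ _ _ => Z

/-- the object at which the core of an entry lives -/
def B : ∀ {Y : C} (σ : Nm C Y), σ.I → C
  | _, .mk _ _ _ B _ _ _ => B

/-- the extension at which an entry is a member -/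
def u : ∀ {Y : C} (σ : Nm C Y) (i : σ.I), Y ⟶ σ.Z i
  | _, .mk _ _ _ _ u _ _ => u

/-- the location of an entry -/
def g : ∀ {Y : C} (σ : Nm C Y) (i : σ.I), σ.B i ⟶ σ.Z i
  | _, .mk _ _ _ _ _ g _ => g

/-- the core of an entry -/
def t : ∀ {Y : C} (σ : Nm C Y) (i : σ.I), Nm C (σ.B i)
  | _, .mk _ _ _ _ _ _ t => t

/-- Forced equality of core names moved to `X`. -/
def ceq : ∀ {B : C} (_ : Nm C B) {B' : C} (_ : Nm C B') (X : C) (_ : B ⟶ X) (_ : B' ⟶ X), Prop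
  | _, .mk _ I Z _ u g t, _, σ', X, h, h' => ∀ (X' : C) (f : X ⟶ X'),
      (∀ (i : I) (w : Z i ⟶ X'), u i ≫ w = h ≫ f →
        ∀ (X₁ : C) (f₁ : X' ⟶ X₁), ∃ (X₂ : C) (f₂ : X₁ ⟶ X₂) (j : σ'.I) (w' : σ'.Z j ⟶ X₂),
          σ'.u j ≫ w' = ((h' ≫ f) ≫ f₁) ≫ f₂ ∧
            ceq (t i) (σ'.t j) X₂ (((g i ≫ w) ≫ f₁) ≫ f₂) (σ'.g j ≫ w')) ∧
      (∀ (j : σ'.I) (w' : σ'.Z j ⟶ X'), σ'.u j ≫ w' = h' ≫ f →
        ∀ (X₁ : C) (f₁ : X' ⟶ X₁), ∃ (X₂ : C) (f₂ : X₁ ⟶ X₂) (i : I) (w : Z i ⟶ X₂),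
          u i ≫ w = ((h ≫ f) ≫ f₁) ≫ f₂ ∧
            ceq (t i) (σ'.t j) X₂ (g i ≫ w) (((σ'.g j ≫ w') ≫ f₁) ≫ f₂))

theorem ceq_iff {B : C} (σ : Nm C B) {B' : C} (σ' : Nm C B') (X : C) (h : B ⟶ X)
    (h' : B' ⟶ X) : ceq σ σ' X h h' ↔ ∀ (X' : C) (f : X ⟶ X'),
      (∀ (i : σ.I) (w : σ.Z i ⟶ X'), σ.u i ≫ w = h ≫ f →
        ∀ (X₁ : C) (f₁ : X' ⟶ X₁), ∃ (X₂ : C) (f₂ : X₁ ⟶ X₂) (j : σ'.I) (w' : σ'.Z j ⟶ X₂),
          σ'.u j ≫ w' = ((h' ≫ f) ≫ f₁) ≫ f₂ ∧
            ceq (σ.t i) (σ'.t j) X₂ (((σ.g i ≫ w) ≫ f₁) ≫ f₂) (σ'.g j ≫ w')) ∧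
      (∀ (j : σ'.I) (w' : σ'.Z j ⟶ X'), σ'.u j ≫ w' = h' ≫ f →
        ∀ (X₁ : C) (f₁ : X' ⟶ X₁), ∃ (X₂ : C) (f₂ : X₁ ⟶ X₂) (i : σ.I) (w : σ.Z i ⟶ X₂),
          σ.u i ≫ w = ((h ≫ f) ≫ f₁) ≫ f₂ ∧
            ceq (σ.t i) (σ'.t j) X₂ (σ.g i ≫ w) (((σ'.g j ≫ w') ≫ f₁) ≫ f₂)) := by
  cases σ
  rfl

/-- Induction on core names by entries. -/
theorem ind {P : ∀ {Y : C}, Nm C Y → Prop}
    (h : ∀ {Y : C} (σ : Nm C Y), (∀ i, P (σ.t i)) → P σ) : ∀ {Y : C} (σ : Nm C Y), P σ := by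
  intro Y σ
  induction σ with
  | mk Y I Z B u g t ih => exact h (.mk Y I Z B u g t) ih

theorem ceq_symm_iff {B : C} (σ : Nm C B) : ∀ {B' : C} (σ' : Nm C B') (X : C) (h : B ⟶ X)
    (h' : B' ⟶ X), ceq σ σ' X h h' ↔ ceq σ' σ X h' h := by
  refine ind (P := fun {B} σ => ∀ {B' : C} (σ' : Nm C B') (X : C) (h : B ⟶ X) (h' : B' ⟶ X),
    ceq σ σ' X h h' ↔ ceq σ' σ X h' h) ?_ σ
  intro B σ ih B' σ' X h h'
  rw [ceq_iff σ σ', ceq_iff σ' σ]
  refine forall_congr' fun X' => forall_congr' fun f => ?_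
  rw [and_comm]
  refine and_congr ?_ ?_
  · refine forall_congr' fun j => forall_congr' fun w' => forall_congr' fun _ =>
      forall_congr' fun X₁ => forall_congr' fun f₁ => exists_congr fun X₂ =>
      exists_congr fun f₂ => exists_congr fun i => exists_congr fun w =>
      and_congr Iff.rfl (ih i _ _ _ _)
  · refine forall_congr' fun j => forall_congr' fun w' => forall_congr' fun _ =>
      forall_congr' fun X₁ => forall_congr' fun f₁ => exists_congr fun X₂ =>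
      exists_congr fun f₂ => exists_congr fun i => exists_congr fun w =>
      and_congr Iff.rfl (ih j _ _ _ _)

end Nm

/-- Located names. -/
structure LN (C : Type u) [Category.{u} C] (X : C) : Type (u + 1) where
  /-- the base -/
  {B : C}
  /-- the location -/
  loc : B ⟶ X
  /-- the core -/
  core : Nm C B

namespace LN

/-- Moving a located name. -/
def mv {X Y : C} (f : X ⟶ Y) (a : LN C X) : LN C Y := ⟨a.loc ≫ f, a.core⟩

@[simp] theorem mv_id {X : C} (a : LN C X) : mv (𝟙 X) a = a := by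
  simp [mv]

theorem mv_comp {X Y Z : C} (f : X ⟶ Y) (g : Y ⟶ Z) (a : LN C X) :
    mv (f ≫ g) a = mv g (mv f a) := by
  simp [mv]

/-- Explicit elements of a located name. -/
def El {X : C} (b a : LN C X) : Prop :=
  ∃ (i : a.core.I) (w : a.core.Z i ⟶ X), a.core.u i ≫ w = a.loc ∧
    b = ⟨a.core.g i ≫ w, a.core.t i⟩

theorem El_mv {X Y : C} (f : X ⟶ Y) {b a : LN C X} (h : El b a) : El (mv f b) (mv f a) := by
  obtain ⟨i, w, h1, rfl⟩ := h
  refine ⟨i, w ≫ f, ?_, ?_⟩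
  · change a.core.u i ≫ w ≫ f = a.loc ≫ f
    rw [← Category.assoc, h1]
  · simp [mv]

/-- Forced equality. -/
def feq {X : C} (a b : LN C X) : Prop := Nm.ceq a.core b.core X a.loc b.loc

/-- Forced membership. -/
def fmem {X : C} (b a : LN C X) : Prop := ∀ (X₁ : C) (f₁ : X ⟶ X₁),
  ∃ (X₂ : C) (f₂ : X₁ ⟶ X₂) (c : LN C X₂), El c (mv f₂ (mv f₁ a)) ∧ feq (mv f₂ (mv f₁ b)) c

theorem feq_symm {X : C} {a b : LN C X} (h : feq a b) : feq b a :=
  (Nm.ceq_symm_iff _ _ _ _ _).1 h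

/-- The recursive characterization of forced equality. -/
theorem feq_iff {X : C} (a b : LN C X) : feq a b ↔ ∀ (X' : C) (f : X ⟶ X'),
    (∀ c, El c (mv f a) → fmem c (mv f b)) ∧ (∀ c, El c (mv f b) → fmem c (mv f a)) := by
  unfold feq
  rw [Nm.ceq_iff]
  refine forall_congr' fun X' => forall_congr' fun f => and_congr ?_ ?_
  · constructor
    · rintro h c ⟨i, w, hw, rfl⟩ X₁ f₁
      obtain ⟨X₂, f₂, j, w', h1, h2⟩ := h i w hw X₁ f₁
      exact ⟨X₂, f₂, _, ⟨j, w', h1, rfl⟩, h2⟩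
    · rintro h i w hw X₁ f₁
      obtain ⟨X₂, f₂, c, ⟨j, w', h1, rfl⟩, h2⟩ := h _ ⟨i, w, hw, rfl⟩ X₁ f₁
      exact ⟨X₂, f₂, j, w', h1, h2⟩
  · constructor
    · rintro h c ⟨i, w, hw, rfl⟩ X₁ f₁
      obtain ⟨X₂, f₂, j, w', h1, h2⟩ := h i w hw X₁ f₁
      exact ⟨X₂, f₂, _, ⟨j, w', h1, rfl⟩, feq_symm h2⟩
    · rintro h i w hw X₁ f₁
      obtain ⟨X₂, f₂, c, ⟨j, w', h1, rfl⟩, h2⟩ := h _ ⟨i, w, hw, rfl⟩ X₁ f₁
      exact ⟨X₂, f₂, j, w', h1, feq_symm h2⟩

theorem feq_mono {X Y : C} (f : X ⟶ Y) {a b : LN C X} (h : feq a b) :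
    feq (mv f a) (mv f b) := by
  rw [feq_iff] at h ⊢
  intro Z g
  have := h Z (f ≫ g)
  simpa only [mv_comp] using this

theorem fmem_mono {X Y : C} (f : X ⟶ Y) {a b : LN C X} (h : fmem a b) :
    fmem (mv f a) (mv f b) := by
  intro Z g
  have := h Z (f ≫ g)
  simpa only [mv_comp] using this

theorem fmem_local {X : C} {a b : LN C X}
    (h : ∀ (Y : C) (f : X ⟶ Y), ∃ (Z : C) (g : Y ⟶ Z), fmem (mv g (mv f a)) (mv g (mv f b))) :
    fmem a b := by
  intro Y f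
  obtain ⟨Z, g, hg⟩ := h Y f
  obtain ⟨W, k, c, h1, h2⟩ := hg Z (𝟙 Z)
  refine ⟨W, g ≫ k, c, ?_, ?_⟩
  · simpa only [mv_comp, mv_id] using h1
  · simpa only [mv_comp, mv_id] using h2

theorem feq_local {X : C} {a b : LN C X}
    (h : ∀ (Y : C) (f : X ⟶ Y), ∃ (Z : C) (g : Y ⟶ Z), feq (mv g (mv f a)) (mv g (mv f b))) :
    feq a b := by
  rw [feq_iff]
  intro X' f'
  constructor
  · intro c hc
    refine fmem_local fun Y f => ?_
    obtain ⟨Z, g, hg⟩ := h Y (f' ≫ f)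
    refine ⟨Z, g, ?_⟩
    rw [feq_iff] at hg
    have := (hg Z (𝟙 Z)).1 (mv g (mv f c)) ?_
    · simpa only [mv_comp, mv_id] using this
    · have := El_mv g (El_mv f hc)
      simpa only [mv_comp, mv_id] using this
  · intro c hc
    refine fmem_local fun Y f => ?_
    obtain ⟨Z, g, hg⟩ := h Y (f' ≫ f)
    refine ⟨Z, g, ?_⟩
    rw [feq_iff] at hg
    have := (hg Z (𝟙 Z)).2 (mv g (mv f c)) ?_
    · simpa only [mv_comp, mv_id] using this
    · have := El_mv g (El_mv f hc)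
      simpa only [mv_comp, mv_id] using this

/-- Induction on located names by explicit elements at all extensions. -/
theorem ind {P : ∀ {X : C}, LN C X → Prop}
    (h : ∀ {X : C} (a : LN C X), (∀ (Y : C) (f : X ⟶ Y) (b : LN C Y), El b (mv f a) → P b) →
      P a) : ∀ {X : C} (a : LN C X), P a := by
  have key : ∀ {B : C} (σ : Nm C B), ∀ (X : C) (l : B ⟶ X), P (⟨l, σ⟩ : LN C X) := by
    intro B σ
    refine Nm.ind (P := fun {B} σ => ∀ (X : C) (l : B ⟶ X), P (⟨l, σ⟩ : LN C X)) ?_ σ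
    intro B σ ih X l
    refine h _ ?_
    rintro Y f b ⟨i, w, _, rfl⟩
    exact ih i _ _
  intro X a
  exact key a.core X a.loc

theorem El.fmem_aux {X : C} {b a : LN C X} (h : El b a)
    (hr : ∀ (Y : C) (f : X ⟶ Y), feq (mv f b) (mv f b)) : fmem b a := by
  intro Y f
  refine ⟨Y, 𝟙 Y, mv f b, ?_, ?_⟩
  · simpa using El_mv f h
  · simpa using hr Y f

theorem feq_refl {X : C} (a : LN C X) : feq a a := by
  refine ind (P := fun {X} a => feq a a) ?_ a
  intro X a ih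
  rw [feq_iff]
  intro Y f
  have key : ∀ c, El c (mv f a) → fmem c (mv f a) := by
    intro c hc
    exact El.fmem_aux hc fun Z g => feq_mono g (ih Y f c hc)
  exact ⟨key, key⟩

/-- An explicit element is forced to be an element. -/
theorem El.fmem {X : C} {b a : LN C X} (h : El b a) : fmem b a :=
  El.fmem_aux h fun _ _ => feq_refl _

theorem fmem_congr_left_aux {X : C} {b b' a : LN C X}
    (ht : ∀ (Y : C) (f : X ⟶ Y) (c : LN C Y), El c (mv f a) → feq (mv f b) c → feq (mv f b') c)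
    (h : LN.fmem b a) : LN.fmem b' a := by
  intro Y f
  obtain ⟨Z, g, c, h1, h2⟩ := h Y f
  refine ⟨Z, g, c, h1, ?_⟩
  have := ht Z (f ≫ g) c
  simp only [mv_comp] at this
  exact this h1 h2

/-- Forced equality is transitive. -/
theorem feq_trans {X : C} {a b c : LN C X} (h1 : feq a b) (h2 : feq b c) : feq a c := by
  -- induction on `a` for all `b c` at all extensions
  have key : ∀ {X : C} (a : LN C X), ∀ b c : LN C X, feq a b → feq b c → feq a c := by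
    intro X a
    refine ind (P := fun {X} a => ∀ b c : LN C X, feq a b → feq b c → feq a c) ?_ a
    intro X a ih b c hab hbc
    rw [feq_iff]
    intro Y f
    constructor
    · -- an explicit element x of a is in b, hence densely equal to an explicit element y of b,
      -- which is densely equal to an explicit element z of c
      intro x hx
      have hx' : El x (mv f a) := hx
      have hxb := ((feq_iff _ _).1 hab Y f).1 x hx'
      intro X₁ f₁
      obtain ⟨X₂, f₂, y, hy, hxy⟩ := hxb X₁ f₁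
      have hyb : El y (mv (f ≫ f₁ ≫ f₂) b) := by simpa only [mv_comp] using hy
      have hyc := ((feq_iff _ _).1 hbc X₂ (f ≫ f₁ ≫ f₂)).1 y hyb
      obtain ⟨X₃, f₃, z, hz, hyz⟩ := hyc X₂ (𝟙 X₂)
      rw [mv_id] at hyz hz
      refine ⟨X₃, f₂ ≫ f₃, z, ?_, ?_⟩
      · simpa only [mv_comp] using hz
      · refine ih X₃ (f ≫ f₁ ≫ f₂ ≫ f₃) _ ?_ (mv f₃ y) z ?_ hyz
        · have := El_mv f₃ (El_mv f₂ (El_mv f₁ hx'))
          simpa only [mv_comp] using this
        · have := feq_mono f₃ hxy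
          simpa only [mv_comp] using this
    · -- an explicit element z of c
      intro z hz
      have hzb := ((feq_iff _ _).1 hbc Y f).2 z hz
      intro X₁ f₁
      obtain ⟨X₂, f₂, y, hy, hzy⟩ := hzb X₁ f₁
      have hyb : El y (mv (f ≫ f₁ ≫ f₂) b) := by simpa only [mv_comp] using hy
      have hya := ((feq_iff _ _).1 hab X₂ (f ≫ f₁ ≫ f₂)).2 y hyb
      obtain ⟨X₃, f₃, x, hx, hyx⟩ := hya X₂ (𝟙 X₂)
      rw [mv_id] at hyx hx
      refine ⟨X₃, f₂ ≫ f₃, x, ?_, ?_⟩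
      · simpa only [mv_comp] using hx
      · -- feq (mv .. z) x : x is an element of a
        have hx' : El x (mv (f ≫ f₁ ≫ f₂ ≫ f₃) a) := by simpa only [mv_comp] using hx
        refine feq_symm (ih X₃ (f ≫ f₁ ≫ f₂ ≫ f₃) x hx' (mv f₃ y) _ (feq_symm hyx) ?_)
        have := feq_symm (feq_mono f₃ hzy)
        simpa only [mv_comp] using this
  exact key a b c h1 h2

theorem fmem_congr {X : C} {a a' b b' : LN C X} (ha : feq a a') (hb : feq b b')
    (h : fmem a b) : fmem a' b' := by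
  intro X₁ f₁
  obtain ⟨X₂, f₂, c, hc, hac⟩ := h X₁ f₁
  have hc' : El c (mv (f₁ ≫ f₂) b) := by simpa only [mv_comp] using hc
  obtain ⟨X₃, f₃, d, hd, hcd⟩ := ((feq_iff _ _).1 hb X₂ (f₁ ≫ f₂)).1 c hc' X₂ (𝟙 X₂)
  rw [mv_id] at hd hcd
  refine ⟨X₃, f₂ ≫ f₃, d, ?_, ?_⟩
  · simpa only [mv_comp] using hd
  · have h1 := feq_mono f₃ hac
    have h2 := feq_symm (feq_mono f₃ (feq_mono f₂ (feq_mono f₁ ha)))
    rw [mv_comp]
    exact feq_trans h2 (feq_trans h1 hcd)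

/-- Extensionality: names with the same forced elements at all extensions are forced equal. -/
theorem feq_of_ext {X : C} {a b : LN C X}
    (h : ∀ (Y : C) (f : X ⟶ Y) (c : LN C Y), fmem c (mv f a) ↔ fmem c (mv f b)) : feq a b := by
  rw [feq_iff]
  intro Y f
  exact ⟨fun c hc => (h Y f c).1 hc.fmem, fun c hc => (h Y f c).2 hc.fmem⟩

/-- The empty name. -/
def empty (X : C) : LN C X :=
  ⟨𝟙 X, .mk X PEmpty (fun i => i.elim) (fun i => i.elim) (fun i => i.elim) (fun i => i.elim)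
    (fun i => i.elim)⟩

end LN

/-- The atomic forcing data of the names over `C`. -/
def nameAtomic (C : Type u) [Category.{u} C] : Atomic.{u, u, u + 1} C where
  N := LN C
  mv := LN.mv
  mv_id := LN.mv_id
  mv_comp := LN.mv_comp
  ne X := ⟨LN.empty X⟩
  feq := LN.feq
  fmem := LN.fmem
  feq_refl := LN.feq_refl
  feq_symm := LN.feq_symm
  feq_trans := LN.feq_trans
  feq_mono := LN.feq_mono
  fmem_mono := LN.fmem_mono
  feq_local := LN.feq_local
  fmem_local := LN.fmem_local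
  fmem_congr := LN.fmem_congr

end

end Vale.Agent.P323.F
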