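import Vale.Agent.P323.F.Inst
import Vale.Agent.P323.F.H846Bridge

/-!
The ordered pairs of located names are forced to be Kuratowski pairs.
-/

namespace Vale.Agent.P323.F

open CategoryTheory

universe u

theorem fupair_upair {C : Type u} [Category.{u} C] {X : C} (x y : LN C X) :
    FUPair (C := C) (LN.upair x y) x y := by
  intro Y f z
  refine (LN.fmem_mv_upair x y f z).trans ?_
  refine forall_congr' fun Z => forall_congr' fun g => exists_congr fun W =>
    exists_congr fun h => ?_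
  have e1 : LN.mv (f ≫ g ≫ h) x = LN.mv (g ≫ h) (LN.mv f x) := LN.mv_comp f (g ≫ h) x
  have e2 : LN.mv (f ≫ g ≫ h) y = LN.mv (g ≫ h) (LN.mv f y) := LN.mv_comp f (g ≫ h) y
  change (LN.feq (LN.mv (g ≫ h) z) (LN.mv (g ≫ h) (LN.mv f x)) ∨
    LN.feq (LN.mv (g ≫ h) z) (LN.mv (g ≫ h) (LN.mv f y))) ↔
    (LN.feq (LN.mv (g ≫ h) z) (LN.mv (f ≫ g ≫ h) x) ∨
    LN.feq (LN.mv (g ≫ h) z) (LN.mv (f ≫ g ≫ h) y))
  rw [e1, e2]

/-- The ordered pairs of the name theory of located names are Kuratowski pairs. -/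
theorem opPair (C : Type u) [Category.{u} C] : OpPair C :=
  opPair_of_up (fun x y => LN.upair x y) (fun x y => fupair_upair x y)
    (fun _ _ => LN.feq_refl _)

end Vale.Agent.P323.F
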