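import Vale.Agent.P323.F.Atomic
import Vale.Agent.P323.Z.Sentences

/-!
Validity transfer: if every formula forced by all conditions (for all parameters) is true in
`(M, E)`, and the names satisfy the shallow forms of the axioms (`ZFNames`), then `(M, E)` is a
model of ZF.
-/

namespace Vale.Agent.P323.F

open CategoryTheory Vale.Agent.P323.Z Vale.Agent.P323.Z.Fml

universe u v w

section
variable {C : Type u} [Category.{v} C] {A : Atomic.{u, v, w} C}

/-- forced by all conditions, for all parameters -/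
def Valid (A : Atomic.{u, v, w} C) {n : ℕ} (φ : Fml n) : Prop :=
  ∀ (X : C) (xs : Fin n → A.N X), Forces A φ X xs

theorem valid_all {n : ℕ} {φ : Fml (n + 1)} (h : Valid A φ) : Valid A (all φ) :=
  fun _ _ Y _ _ => h Y _

theorem valid_imp {n : ℕ} {φ ψ : Fml n}
    (h : ∀ (X : C) (xs : Fin n → A.N X), Forces A φ X xs → Forces A ψ X xs) :
    Valid A (imp φ ψ) := fun _ _ Y _ hφ => h Y _ hφ

theorem forces_ex_of {n : ℕ} {φ : Fml (n + 1)} {X : C} {xs : Fin n → A.N X} (a : A.N X)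
    (h : Forces A φ X (Fin.snoc xs a)) : Forces A (ex φ) X xs := by
  rw [forces_ex]
  intro Y f
  refine ⟨Y, 𝟙 Y, A.mv f a, ?_⟩
  have := forces_mono φ f h
  rw [snoc_mv] at this
  simpa only [A.mv_id] using this

theorem forces_ex_dense {n : ℕ} {φ : Fml (n + 1)} {X : C} {xs : Fin n → A.N X}
    (h : ∀ (Y : C) (f : X ⟶ Y), ∃ (Z : C) (g : Y ⟶ Z) (a : A.N Z),
      Forces A φ Z (Fin.snoc (fun i => A.mv g (A.mv f (xs i))) a)) : Forces A (ex φ) X xs :=
  (forces_ex φ).2 h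

theorem valid_ex {n : ℕ} {φ : Fml (n + 1)}
    (h : ∀ (X : C) (xs : Fin n → A.N X), ∃ a : A.N X, Forces A φ X (Fin.snoc xs a)) :
    Valid A (ex φ) := by
  intro X xs
  obtain ⟨a, ha⟩ := h X xs
  exact forces_ex_of a ha

/-- The shallow forms of the (weak) axioms of ZF for names. -/
structure ZFNames (A : Atomic.{u, v, w} C) : Prop where
  ext : ∀ {X : C} (a b : A.N X), (∀ (Y : C) (f : X ⟶ Y) (c : A.N Y),
    A.fmem c (A.mv f a) ↔ A.fmem c (A.mv f b)) → A.feq a b
  found : ∀ {X : C} (a b : A.N X), A.fmem b a → ∃ (Y : C) (f : X ⟶ Y) (c : A.N Y),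
    A.fmem c (A.mv f a) ∧ ∀ (Z : C) (g : Y ⟶ Z) (z : A.N Z),
      A.fmem z (A.mv g (A.mv f a)) → ¬ A.fmem z (A.mv g c)
  pair : ∀ {X : C} (a b : A.N X), ∃ p : A.N X, A.fmem a p ∧ A.fmem b p
  union : ∀ {X : C} (a : A.N X), ∃ u : A.N X, ∀ (Y : C) (f : X ⟶ Y) (y z : A.N Y),
    A.fmem y (A.mv f a) → A.fmem z y → A.fmem z (A.mv f u)
  power : ∀ {X : C} (a : A.N X), ∃ p : A.N X, ∀ (Y : C) (f : X ⟶ Y) (z : A.N Y),
    (∀ (Z : C) (g : Y ⟶ Z) (w : A.N Z), A.fmem w (A.mv g z) → A.fmem w (A.mv g (A.mv f a))) →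
      A.fmem z (A.mv f p)
  inf : ∀ X : C, ∃ w e : A.N X, A.fmem e w ∧
    (∀ (Y : C) (f : X ⟶ Y) (z : A.N Y), ¬ A.fmem z (A.mv f e)) ∧
    ∀ (Y : C) (f : X ⟶ Y) (x : A.N Y), A.fmem x (A.mv f w) →
      ∃ (Z : C) (g : Y ⟶ Z) (s : A.N Z), A.fmem s (A.mv g (A.mv f w)) ∧
        ∀ (V : C) (h : Z ⟶ V) (z : A.N V), A.fmem z (A.mv h s) ↔
          ∀ (V' : C) (k : V ⟶ V'), ∃ (V'' : C) (l : V' ⟶ V''),
            A.fmem (A.mv l (A.mv k z)) (A.mv l (A.mv k (A.mv h (A.mv g x)))) ∨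
              A.feq (A.mv l (A.mv k z)) (A.mv l (A.mv k (A.mv h (A.mv g x))))
  sep : ∀ {X : C} (a : A.N X) (P : ∀ Y : C, (X ⟶ Y) → A.N Y → Prop),
    (∀ (Y : C) (f : X ⟶ Y) (c : A.N Y) (Z : C) (g : Y ⟶ Z), P Y f c → P Z (f ≫ g) (A.mv g c)) →
    (∀ (Y : C) (f : X ⟶ Y) (c : A.N Y), (∀ (Z : C) (g : Y ⟶ Z), ∃ (W : C) (h : Z ⟶ W),
      P W ((f ≫ g) ≫ h) (A.mv h (A.mv g c))) → P Y f c) →
    (∀ (Y : C) (f : X ⟶ Y) (c d : A.N Y), A.feq c d → P Y f c → P Y f d) →
    ∃ b : A.N X, ∀ (Y : C) (f : X ⟶ Y) (c : A.N Y),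
      A.fmem c (A.mv f b) ↔ A.fmem c (A.mv f a) ∧ P Y f c
  coll : ∀ {X : C} (a : A.N X) (P : ∀ Y : C, (X ⟶ Y) → A.N Y → A.N Y → Prop),
    (∀ (Y : C) (f : X ⟶ Y) (c d : A.N Y) (Z : C) (g : Y ⟶ Z), P Y f c d →
      P Z (f ≫ g) (A.mv g c) (A.mv g d)) →
    (∀ (Y : C) (f : X ⟶ Y) (c c' d : A.N Y), A.feq c c' → P Y f c d → P Y f c' d) →
    (∀ (Y : C) (f : X ⟶ Y) (c : A.N Y), A.fmem c (A.mv f a) → ∃ (Z : C) (g : Y ⟶ Z)
      (d : A.N Z), P Z (f ≫ g) (A.mv g c) d) →
    ∃ b : A.N X, ∀ (Y : C) (f : X ⟶ Y) (c : A.N Y), A.fmem c (A.mv f a) →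
      ∃ (Z : C) (g : Y ⟶ Z) (d : A.N Z), A.fmem d (A.mv (f ≫ g) b) ∧ P Z (f ≫ g) (A.mv g c) d

/-! ### The axioms as formulas with parameters -/

/-- extensionality -/
def extF : Fml 2 := imp (all (iff (mem la (up 0)) (mem la (up 1)))) (eq 0 1)
/-- foundation -/
def foundF : Fml 2 :=
  imp (mem 1 0) (ex (and (mem la (up 0)) (all (imp (mem la (up (up 0))) (neg (mem la (up la)))))))
/-- pairing -/
def pairF : Fml 2 := ex (and (mem (up 0) la) (mem (up 1) la))
/-- union -/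
def unionF : Fml 1 :=
  ex (all (all (imp (mem (up la) (up (up (up 0)))) (imp (mem la (up la)) (mem la (up (up la)))))))
/-- power set -/
def powerF : Fml 1 :=
  ex (all (imp (all (imp (mem la (up la)) (mem la (up (up (up 0)))))) (mem la (up la))))
/-- infinity -/
def infF : Fml 0 :=
  ex (and (ex (and (mem la (up la)) (all (neg (mem la (up la))))))
    (all (imp (mem la (up la)) (ex (and (mem la (up (up la)))
      (all (iff (mem la (up la)) (or (mem la (up (up la))) (eq la (up (up la)))))))))))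

/-- renaming for Separation -/
def sepR (n : ℕ) : Fin (n + 1) → Fin (n + 3) :=
  Fin.snoc (α := fun _ => Fin (n + 3)) (fun i : Fin n => up (up (up i))) la

/-- Separation for `φ`; the parameters are those of `φ` and the set to be cut down. -/
def sepF {n : ℕ} (φ : Fml (n + 1)) : Fml (n + 1) :=
  ex (all (iff (mem la (up la)) (and (mem la (up (up la))) (rename (sepR n) φ))))

/-- first renaming for Collection -/
def collR (n : ℕ) : Fin (n + 2) → Fin (n + 3) :=
  Fin.snoc (α := fun _ => Fin (n + 3)) (Fin.snoc (α := fun _ => Fin (n + 3))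
    (fun i : Fin n => up (up (up i))) (up la)) la

/-- second renaming for Collection -/
def collR' (n : ℕ) : Fin (n + 2) → Fin (n + 4) :=
  Fin.snoc (α := fun _ => Fin (n + 4)) (Fin.snoc (α := fun _ => Fin (n + 4))
    (fun i : Fin n => up (up (up (up i)))) (up la)) la

/-- Collection for `φ`; the parameters are those of `φ` and the domain. -/
def collF {n : ℕ} (φ : Fml (n + 2)) : Fml (n + 1) :=
  imp (all (imp (mem la (up la)) (ex (rename (collR n) φ))))
    (ex (all (imp (mem la (up (up la))) (ex (and (mem la (up (up la))) (rename (collR' n) φ))))))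

theorem sat_extF {M : Type*} (E : M → M → Prop) (v : Fin 2 → M) :
    extF.Sat E v ↔ ((∀ z, E z (v 0) ↔ E z (v 1)) → v 0 = v 1) := by
  simp only [extF, sat_imp, sat_all, sat_iff, sat_mem, sat_eq, Fin.snoc_castSucc, Fin.snoc_last]

theorem sat_foundF {M : Type*} (E : M → M → Prop) (v : Fin 2 → M) :
    foundF.Sat E v ↔ (E (v 1) (v 0) → ∃ y, E y (v 0) ∧ ∀ z, E z (v 0) → ¬ E z y) := by
  simp only [foundF, sat_imp, sat_all, sat_neg, sat_mem, sat_ex, sat_and, Fin.snoc_castSucc,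
    Fin.snoc_last]

theorem sat_pairF {M : Type*} (E : M → M → Prop) (v : Fin 2 → M) :
    pairF.Sat E v ↔ ∃ p, E (v 0) p ∧ E (v 1) p := by
  simp only [pairF, sat_mem, sat_ex, sat_and, Fin.snoc_castSucc, Fin.snoc_last]

theorem sat_unionF {M : Type*} (E : M → M → Prop) (v : Fin 1 → M) :
    unionF.Sat E v ↔ ∃ u, ∀ y z, E y (v 0) → E z y → E z u := by
  simp only [unionF, sat_mem, sat_ex, sat_all, sat_imp, Fin.snoc_castSucc, Fin.snoc_last]

theorem sat_powerF {M : Type*} (E : M → M → Prop) (v : Fin 1 → M) :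
    powerF.Sat E v ↔ ∃ p, ∀ z, (∀ w, E w z → E w (v 0)) → E z p := by
  simp only [powerF, sat_mem, sat_ex, sat_all, sat_imp, Fin.snoc_castSucc, Fin.snoc_last]

theorem sat_infF {M : Type*} (E : M → M → Prop) (v : Fin 0 → M) :
    infF.Sat E v ↔ ∃ w, (∃ e, E e w ∧ ∀ z, ¬ E z e) ∧
      ∀ x, E x w → ∃ s, E s w ∧ ∀ z, E z s ↔ E z x ∨ z = x := by
  simp only [infF, sat_mem, sat_ex, sat_all, sat_imp, sat_and, sat_neg, sat_iff, sat_or, sat_eq,
    Fin.snoc_castSucc, Fin.snoc_last]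

theorem sat_sepF {M : Type*} (E : M → M → Prop) {n : ℕ} (φ : Fml (n + 1)) (v : Fin n → M)
    (a : M) : (sepF φ).Sat E (Fin.snoc v a) ↔
      ∃ b, ∀ x, E x b ↔ E x a ∧ φ.Sat E (Fin.snoc v x) := by
  simp only [sepF, sat_mem, sat_ex, sat_all, sat_iff, sat_and, Fin.snoc_castSucc, Fin.snoc_last,
    sat_rename]
  refine exists_congr fun b => forall_congr' fun x => ?_
  have : (Fin.snoc (Fin.snoc (Fin.snoc v a : Fin (n + 1) → M) b : Fin (n + 2) → M) x :
      Fin (n + 3) → M) ∘ sepR n = Fin.snoc v x := by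
    funext i
    refine Fin.lastCases ?_ (fun j => ?_) i
    · simp [sepR]
    · simp [sepR]
  rw [this]

theorem sat_collF {M : Type*} (E : M → M → Prop) {n : ℕ} (φ : Fml (n + 2)) (v : Fin n → M)
    (a : M) : (collF φ).Sat E (Fin.snoc v a) ↔
      ((∀ x, E x a → ∃ y, φ.Sat E (Fin.snoc (Fin.snoc v x : Fin (n + 1) → M) y)) →
        ∃ b, ∀ x, E x a → ∃ y, E y b ∧ φ.Sat E (Fin.snoc (Fin.snoc v x : Fin (n + 1) → M) y)) := by
  simp only [collF, sat_mem, sat_ex, sat_all, sat_imp, sat_and, Fin.snoc_castSucc, Fin.snoc_last,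
    sat_rename]
  refine imp_congr ?_ ?_
  · refine forall_congr' fun x => imp_congr Iff.rfl (exists_congr fun y => ?_)
    have : (Fin.snoc (Fin.snoc (Fin.snoc v a : Fin (n + 1) → M) x : Fin (n + 2) → M) y :
        Fin (n + 3) → M) ∘ collR n = Fin.snoc (Fin.snoc v x : Fin (n + 1) → M) y := by
      funext i
      refine Fin.lastCases ?_ (fun j => ?_) i
      · simp [collR]
      · refine Fin.lastCases ?_ (fun k => ?_) j
        · simp [collR]
        · simp [collR]
    rw [this]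
  · refine exists_congr fun b => forall_congr' fun x => imp_congr Iff.rfl
      (exists_congr fun y => and_congr Iff.rfl ?_)
    have : (Fin.snoc (Fin.snoc (Fin.snoc (Fin.snoc v a : Fin (n + 1) → M) b : Fin (n + 2) → M) x :
        Fin (n + 3) → M) y : Fin (n + 4) → M) ∘ collR' n =
          Fin.snoc (Fin.snoc v x : Fin (n + 1) → M) y := by
      funext i
      refine Fin.lastCases ?_ (fun j => ?_) i
      · simp [collR']
      · refine Fin.lastCases ?_ (fun k => ?_) j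
        · simp [collR']
        · simp [collR']
    rw [this]

/-! ### The axioms are valid -/

theorem valid_extF (h : ZFNames A) : Valid A extF := by
  refine valid_imp fun X xs hx => ?_
  rw [forces_eq]
  refine h.ext _ _ fun Y f c => ?_
  have := hx Y f c
  rw [forces_iff] at this
  have := this Y (𝟙 Y)
  simpa only [forces_mem, A.mv_id, Fin.snoc_castSucc, Fin.snoc_last] using this

theorem valid_foundF (h : ZFNames A) : Valid A foundF := by
  refine valid_imp fun X xs hx => ?_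
  rw [forces_mem] at hx
  rw [forces_ex]
  intro Y f
  obtain ⟨Z, g, c, h1, h2⟩ := h.found _ _ (A.fmem_mono f hx)
  refine ⟨Z, g, c, ?_⟩
  rw [forces_and]
  refine ⟨?_, ?_⟩
  · simpa only [forces_mem, Fin.snoc_castSucc, Fin.snoc_last] using h1
  · intro V k z V' k' hz V'' k'' hc
    simp only [forces_mem, Fin.snoc_castSucc, Fin.snoc_last] at hz hc
    have h3 := h2 V'' (k ≫ k' ≫ k'') (A.mv k'' (A.mv k' z))
    simp only [A.mv_comp] at h3
    exact h3 (A.fmem_mono k'' hz) hc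

theorem valid_pairF (h : ZFNames A) : Valid A pairF := by
  refine valid_ex fun X xs => ?_
  obtain ⟨p, h1, h2⟩ := h.pair (xs 0) (xs 1)
  refine ⟨p, ?_⟩
  rw [forces_and]
  simpa only [forces_mem, Fin.snoc_castSucc, Fin.snoc_last] using And.intro h1 h2

theorem valid_unionF (h : ZFNames A) : Valid A unionF := by
  refine valid_ex fun X xs => ?_
  obtain ⟨u, hu⟩ := h.union (xs 0)
  refine ⟨u, ?_⟩
  intro Y f y Z g z V k h1 W l h2
  simp only [forces_mem, Fin.snoc_castSucc, Fin.snoc_last] at h1 h2 ⊢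
  have := hu W (f ≫ g ≫ k ≫ l) (A.mv l (A.mv k (A.mv g y))) (A.mv l (A.mv k z))
  simp only [A.mv_comp] at this
  exact this (A.fmem_mono l h1) h2

theorem valid_powerF (h : ZFNames A) : Valid A powerF := by
  refine valid_ex fun X xs => ?_
  obtain ⟨p, hp⟩ := h.power (xs 0)
  refine ⟨p, ?_⟩
  intro Y f z Z g h1
  simp only [forces_mem, Fin.snoc_castSucc, Fin.snoc_last] at ⊢
  have := hp Z (f ≫ g) (A.mv g z) ?_
  · simpa only [A.mv_comp] using this
  · intro V k w hw
    have h2 := h1 V k w V (𝟙 V)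
    simp only [forces_mem, A.mv_id, A.mv_comp, Fin.snoc_castSucc, Fin.snoc_last] at h2 ⊢
    exact h2 hw

theorem valid_infF (h : ZFNames A) : Valid A infF := by
  refine valid_ex fun X xs => ?_
  obtain ⟨w, e, h1, h2, h3⟩ := h.inf X
  refine ⟨w, ?_⟩
  rw [forces_and]
  constructor
  · refine forces_ex_of e ?_
    rw [forces_and]
    refine ⟨?_, ?_⟩
    · simpa only [forces_mem, Fin.snoc_castSucc, Fin.snoc_last] using h1
    · intro Y f z Z g hz
      simp only [forces_mem, Fin.snoc_castSucc, Fin.snoc_last] at hz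
      have := h2 Z (f ≫ g) (A.mv g z)
      simp only [A.mv_comp] at this
      exact this hz
  · intro Y f x Y' f' hx
    simp only [forces_mem, Fin.snoc_castSucc, Fin.snoc_last] at hx
    rw [forces_ex]
    intro Y₁ f₁
    have hx1 := A.fmem_mono f₁ hx
    obtain ⟨Z, g, s, hs, hs'⟩ := h3 Y₁ (f ≫ f' ≫ f₁) (A.mv f₁ (A.mv f' x)) (by
      simpa only [A.mv_comp] using hx1)
    refine ⟨Z, g, s, ?_⟩
    rw [forces_and]
    refine ⟨?_, ?_⟩
    · simpa only [forces_mem, Fin.snoc_castSucc, Fin.snoc_last, A.mv_comp] using hs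
    · intro V k z
      rw [forces_iff]
      intro V' k'
      rw [forces_or]
      have := hs' V' (k ≫ k') (A.mv k' z)
      simp only [forces_mem, forces_eq, Fin.snoc_castSucc, Fin.snoc_last, A.mv_comp] at this ⊢
      exact this

theorem valid_sepF (h : ZFNames A) {n : ℕ} (φ : Fml (n + 1)) : Valid A (sepF φ) := by
  refine valid_ex fun X xs => ?_
  let ys : Fin n → A.N X := fun i => xs i.castSucc
  have p1 : ∀ (Y : C) (f : X ⟶ Y) (c : A.N Y) (Z : C) (g : Y ⟶ Z),
      Forces A φ Y (Fin.snoc (fun i => A.mv f (ys i)) c) →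
        Forces A φ Z (Fin.snoc (fun i => A.mv (f ≫ g) (ys i)) (A.mv g c)) := by
    intro Y f c Z g hP
    have := forces_mono φ g hP
    rw [snoc_mv] at this
    simpa only [A.mv_comp] using this
  have p2 : ∀ (Y : C) (f : X ⟶ Y) (c : A.N Y), (∀ (Z : C) (g : Y ⟶ Z),
      ∃ (W : C) (h : Z ⟶ W), Forces A φ W (Fin.snoc (fun i => A.mv ((f ≫ g) ≫ h) (ys i))
        (A.mv h (A.mv g c)))) → Forces A φ Y (Fin.snoc (fun i => A.mv f (ys i)) c) := by
    intro Y f c hloc
    refine forces_local φ fun Z g => ?_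
    obtain ⟨W, k, hW⟩ := hloc Z g
    refine ⟨W, k, ?_⟩
    have e1 := snoc_mv (A := A) (g ≫ k) (fun i => A.mv f (ys i)) c
    simp only [A.mv_comp] at e1 hW
    rw [e1]
    exact hW
  have p3 : ∀ (Y : C) (f : X ⟶ Y) (c d : A.N Y), A.feq c d →
      Forces A φ Y (Fin.snoc (fun i => A.mv f (ys i)) c) →
        Forces A φ Y (Fin.snoc (fun i => A.mv f (ys i)) d) := by
    intro Y f c d hcd hP
    refine forces_congr φ (fun i => ?_) hP
    refine Fin.lastCases ?_ (fun j => ?_) i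
    · simpa using hcd
    · simpa using A.feq_refl _
  obtain ⟨b, hb⟩ := h.sep (xs (Fin.last n))
    (fun Y f c => Forces A φ Y (Fin.snoc (fun i => A.mv f (ys i)) c)) p1 p2 p3
  refine ⟨b, ?_⟩
  intro Y f c
  rw [forces_iff]
  intro Z g
  rw [forces_and, forces_rename]
  have hbg := hb Z (f ≫ g) (A.mv g c)
  have e1 : (fun i => A.mv g ((Fin.snoc (α := fun _ => A.N Y) (fun i => A.mv f
      ((Fin.snoc (α := fun _ => A.N X) xs b : Fin (n + 2) → A.N X) i)) c : Fin (n + 3) → A.N Y)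
        (sepR n i))) =
      Fin.snoc (α := fun _ => A.N Z) (fun i => A.mv g (A.mv f (ys i))) (A.mv g c) := by
    funext i
    refine Fin.lastCases ?_ (fun j => ?_) i
    · simp [sepR]
    · simp [sepR, ys]
  rw [e1]
  simp only [forces_mem, Fin.snoc_castSucc, Fin.snoc_last, A.mv_comp] at hbg ⊢
  exact hbg

theorem valid_collF (h : ZFNames A) {n : ℕ} (φ : Fml (n + 2)) : Valid A (collF φ) := by
  refine valid_imp fun X xs hx => ?_
  let ys : Fin n → A.N X := fun i => xs i.castSucc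
  have p1 : ∀ (Y : C) (f : X ⟶ Y) (c d : A.N Y) (Z : C) (g : Y ⟶ Z),
      Forces A φ Y (Fin.snoc (Fin.snoc (fun i => A.mv f (ys i)) c : Fin (n + 1) → A.N Y) d) →
      Forces A φ Z (Fin.snoc (Fin.snoc (fun i => A.mv (f ≫ g) (ys i)) (A.mv g c) :
        Fin (n + 1) → A.N Z) (A.mv g d)) := by
    intro Y f c d Z g hP
    have := forces_mono φ g hP
    rw [snoc_mv, snoc_mv] at this
    simpa only [A.mv_comp] using this
  have p2 : ∀ (Y : C) (f : X ⟶ Y) (c c' d : A.N Y), A.feq c c' →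
      Forces A φ Y (Fin.snoc (Fin.snoc (fun i => A.mv f (ys i)) c : Fin (n + 1) → A.N Y) d) →
      Forces A φ Y (Fin.snoc (Fin.snoc (fun i => A.mv f (ys i)) c' : Fin (n + 1) → A.N Y) d) := by
    intro Y f c c' d hcc hP
    refine forces_congr φ (fun i => ?_) hP
    refine Fin.lastCases ?_ (fun j => ?_) i
    · simpa using A.feq_refl _
    · refine Fin.lastCases ?_ (fun j => ?_) j
      · simpa using hcc
      · simpa using A.feq_refl _
  have p3 : ∀ (Y : C) (f : X ⟶ Y) (c : A.N Y), A.fmem c (A.mv f (xs (Fin.last n))) →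
      ∃ (Z : C) (g : Y ⟶ Z) (d : A.N Z), Forces A φ Z
        (Fin.snoc (Fin.snoc (fun i => A.mv (f ≫ g) (ys i)) (A.mv g c) :
          Fin (n + 1) → A.N Z) d) := by
    intro Y f c hc
    have h1 := hx Y f c Y (𝟙 Y)
    simp only [forces_mem, Fin.snoc_castSucc, Fin.snoc_last, A.mv_id] at h1
    have h2 := h1 hc
    rw [forces_ex] at h2
    obtain ⟨Z, g, d, hd⟩ := h2 Y (𝟙 Y)
    refine ⟨Z, g, d, ?_⟩
    rw [forces_rename] at hd
    convert hd using 1
    funext i
    refine Fin.lastCases ?_ (fun j => ?_) i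
    · simp [collR]
    · refine Fin.lastCases ?_ (fun j => ?_) j
      · simp [collR, A.mv_id]
      · simp [collR, A.mv_comp, A.mv_id, ys]
  obtain ⟨b, hb⟩ := h.coll (xs (Fin.last n))
    (fun Y f c d => Forces A φ Y
      (Fin.snoc (Fin.snoc (fun i => A.mv f (ys i)) c : Fin (n + 1) → A.N Y) d)) p1 p2 p3
  refine forces_ex_of b ?_
  intro Y f c Z g hc
  simp only [forces_mem, Fin.snoc_castSucc, Fin.snoc_last] at hc
  rw [forces_ex]
  intro V k
  obtain ⟨W, l, d, hd, hP⟩ := hb V (f ≫ g ≫ k) (A.mv k (A.mv g c)) (by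
    simpa only [A.mv_comp] using A.fmem_mono k hc)
  refine ⟨W, l, d, ?_⟩
  rw [forces_and, forces_rename]
  refine ⟨?_, ?_⟩
  · simpa only [forces_mem, Fin.snoc_castSucc, Fin.snoc_last, A.mv_comp] using hd
  · convert hP using 1
    funext i
    refine Fin.lastCases ?_ (fun j => ?_) i
    · simp [collR']
    · refine Fin.lastCases ?_ (fun j => ?_) j
      · simp [collR', A.mv_comp]
      · simp [collR', A.mv_comp, ys]

/-- If all valid formulas are true in `(M, E)`, then `(M, E)` is a model of ZF. -/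
theorem isZFModel_of_valid (h : ZFNames A) {M : Type*} {E : M → M → Prop}
    (hV : ∀ (n : ℕ) (φ : Fml n), Valid A φ → ∀ v : Fin n → M, φ.Sat E v) : IsZFModel E := by
  refine WeakZF.isZFModel ?_
  refine ⟨?_, ?_, ?_, ?_, ?_, ?_, ?_, ?_⟩
  · intro x y
    exact (sat_extF E ![x, y]).1 (hV _ _ (valid_extF h) ![x, y])
  · rintro x ⟨y, hy⟩
    exact (sat_foundF E ![x, y]).1 (hV _ _ (valid_foundF h) ![x, y]) hy
  · intro x y
    exact (sat_pairF E ![x, y]).1 (hV _ _ (valid_pairF h) ![x, y])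
  · intro x
    exact (sat_unionF E ![x]).1 (hV _ _ (valid_unionF h) ![x])
  · intro x
    exact (sat_powerF E ![x]).1 (hV _ _ (valid_powerF h) ![x])
  · exact (sat_infF E ![]).1 (hV _ _ (valid_infF h) ![])
  · intro n φ v a
    exact (sat_sepF E φ v a).1 (hV _ _ (valid_sepF h φ) (Fin.snoc v a))
  · intro n φ v a
    exact (sat_collF E φ v a).1 (hV _ _ (valid_collF h φ) (Fin.snoc v a))

end

end Vale.Agent.P323.F
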