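import Mathlib
import Vale.Agent.P323.F.ZFb

/-!
Names with prescribed entries, pairs, standard names of ordinals, and the forced forms of
extensionality, foundation, pairing and infinity.
-/

namespace Vale.Agent.P323.F

open CategoryTheory

universe u

section
variable {C : Type u} [Category.{u} C]

/-- `P` holds densely above `X`. -/
def Dns {X : C} (P : ∀ Y : C, (X ⟶ Y) → Prop) : Prop :=
  ∀ (Y : C) (f : X ⟶ Y), ∃ (Z : C) (g : Y ⟶ Z), P Z (f ≫ g)

theorem Dns.bind {X : C} {P Q : ∀ Y : C, (X ⟶ Y) → Prop} (hP : Dns P)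
    (h : ∀ (Y : C) (f : X ⟶ Y), P Y f → Dns (fun Z (g : Y ⟶ Z) => Q Z (f ≫ g))) : Dns Q := by
  intro Y f
  obtain ⟨Z, g, hg⟩ := hP Y f
  obtain ⟨W, k, hk⟩ := h Z _ hg Z (𝟙 Z)
  refine ⟨W, g ≫ k, ?_⟩
  simpa using hk

theorem Dns.imp {X : C} {P Q : ∀ Y : C, (X ⟶ Y) → Prop} (hP : Dns P)
    (h : ∀ (Y : C) (f : X ⟶ Y), P Y f → Q Y f) : Dns Q := by
  intro Y f
  obtain ⟨Z, g, hg⟩ := hP Y f
  exact ⟨Z, g, h _ _ hg⟩

theorem Dns.of_all {X : C} {P : ∀ Y : C, (X ⟶ Y) → Prop} (h : ∀ (Y : C) (f : X ⟶ Y), P Y f) :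
    Dns P := fun Y _ => ⟨Y, 𝟙 Y, h _ _⟩

namespace LN

theorem feq_of_dns {X : C} {a b : LN C X} {P : ∀ Y : C, (X ⟶ Y) → Prop} (hP : Dns P)
    (h : ∀ (Y : C) (f : X ⟶ Y), P Y f → feq (mv f a) (mv f b)) : feq a b := by
  refine feq_local fun Y f => ?_
  obtain ⟨Z, g, hg⟩ := hP Y f
  refine ⟨Z, g, ?_⟩
  have := h _ _ hg
  simpa only [mv_comp] using this

theorem fmem_of_dns {X : C} {a b : LN C X} {P : ∀ Y : C, (X ⟶ Y) → Prop} (hP : Dns P)
    (h : ∀ (Y : C) (f : X ⟶ Y), P Y f → fmem (mv f a) (mv f b)) : fmem a b := by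
  refine fmem_local fun Y f => ?_
  obtain ⟨Z, g, hg⟩ := hP Y f
  refine ⟨Z, g, ?_⟩
  have := h _ _ hg
  simpa only [mv_comp] using this

/-! ### Explicit elements -/

/-- The explicit element with a given index. -/
def ent {X : C} (a : LN C X) (e : Ent a) : LN C X := e.val

theorem ent_mem {X : C} (a : LN C X) (e : Ent a) : fmem (ent a e) a := e.el.fmem

theorem mem_El {X : C} {b a : LN C X} (h : fmem b a) :
    ∃ (Y : C) (f : X ⟶ Y) (c : LN C Y), El c (mv f a) ∧ feq (mv f b) c := by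
  obtain ⟨Y, f, c, h1, h2⟩ := h X (𝟙 X)
  rw [mv_id] at h1 h2
  exact ⟨Y, f, c, h1, h2⟩

theorem mem_ent {X : C} {b a : LN C X} (h : fmem b a) :
    ∃ (Y : C) (f : X ⟶ Y) (e : Ent (mv f a)), feq (mv f b) (ent (mv f a) e) := by
  obtain ⟨Y, f, c, h1, h2⟩ := mem_El h
  obtain ⟨e, rfl⟩ := h1.exists_ent
  exact ⟨Y, f, e, h2⟩

/-! ### Names with prescribed entries -/

/-- The name at `X` with prescribed located entries. -/
def mkN (X : C) {I : Type u} (Z : I → C) (v : ∀ i, X ⟶ Z i) (e : ∀ i, LN C (Z i)) : LN C X :=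
  ⟨𝟙 X, .mk X I Z (fun i => (e i).B) v (fun i => (e i).loc) (fun i => (e i).core)⟩

theorem El_mkN {X W : C} {I : Type u} (Z : I → C) (v : ∀ i, X ⟶ Z i) (e : ∀ i, LN C (Z i))
    (f : X ⟶ W) (c : LN C W) :
    El c (mv f (mkN X Z v e)) ↔ ∃ (i : I) (w : Z i ⟶ W), v i ≫ w = f ∧ c = mv w (e i) := by
  constructor
  · rintro ⟨i, w, h, rfl⟩
    refine ⟨i, w, ?_, rfl⟩
    exact h.trans (Category.id_comp _)
  · rintro ⟨i, w, h, rfl⟩
    exact ⟨i, w, h.trans (Category.id_comp _).symm, rfl⟩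

theorem fmem_mkN {X W : C} {I : Type u} (Z : I → C) (v : ∀ i, X ⟶ Z i) (e : ∀ i, LN C (Z i))
    (f : X ⟶ W) (c : LN C W) :
    fmem c (mv f (mkN X Z v e)) ↔ ∀ (W' : C) (k : W ⟶ W'), ∃ (W'' : C) (h : W' ⟶ W'') (i : I)
      (w : Z i ⟶ W''), f ≫ k ≫ h = v i ≫ w ∧ feq (mv (k ≫ h) c) (mv w (e i)) := by
  refine forall_congr' fun W' => forall_congr' fun k => exists_congr fun W'' =>
    exists_congr fun h => ?_
  rw [← mv_comp, ← mv_comp]
  constructor
  · rintro ⟨d, hd, he⟩
    rw [El_mkN] at hd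
    obtain ⟨i, w, hw, rfl⟩ := hd
    refine ⟨i, w, hw.symm, ?_⟩
    rwa [mv_comp]
  · rintro ⟨i, w, hw, he⟩
    refine ⟨mv w (e i), ?_, ?_⟩
    · rw [El_mkN]
      exact ⟨i, w, hw.symm, rfl⟩
    · rwa [← mv_comp]

/-! ### Unordered pairs -/

/-- The unordered pair. -/
def upair {X : C} (a b : LN C X) : LN C X :=
  mkN X (I := ULift.{u} Bool) (fun _ => X) (fun _ => 𝟙 X) (fun i => cond i.down a b)

theorem El_upair {X W : C} (a b : LN C X) (f : X ⟶ W) (c : LN C W) :
    El c (mv f (upair a b)) ↔ (c = mv f a ∨ c = mv f b) := by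
  unfold upair
  rw [El_mkN]
  constructor
  · rintro ⟨⟨i⟩, w, hw, rfl⟩
    rw [Category.id_comp] at hw
    subst hw
    cases i
    · exact Or.inr rfl
    · exact Or.inl rfl
  · rintro (rfl | rfl)
    · exact ⟨⟨true⟩, f, Category.id_comp _, rfl⟩
    · exact ⟨⟨false⟩, f, Category.id_comp _, rfl⟩

theorem fmem_mv_upair {X W : C} (a b : LN C X) (f : X ⟶ W) (c : LN C W) :
    fmem c (mv f (upair a b)) ↔ Dns (fun _ (k : W ⟶ _) =>
      feq (mv k c) (mv k (mv f a)) ∨ feq (mv k c) (mv k (mv f b))) := by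
  refine forall_congr' fun W' => forall_congr' fun k => exists_congr fun W'' =>
    exists_congr fun h => ?_
  rw [← mv_comp, ← mv_comp]
  constructor
  · rintro ⟨d, hd, he⟩
    rw [El_upair] at hd
    rcases hd with rfl | rfl
    · left
      rw [← mv_comp f]
      rwa [mv_comp k]
    · right
      rw [← mv_comp f]
      rwa [mv_comp k]
  · rintro (hd | hd)
    · refine ⟨mv (f ≫ k ≫ h) a, (El_upair _ _ _ _).2 (Or.inl rfl), ?_⟩
      rw [← mv_comp f] at hd
      rwa [← mv_comp]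
    · refine ⟨mv (f ≫ k ≫ h) b, (El_upair _ _ _ _).2 (Or.inr rfl), ?_⟩
      rw [← mv_comp f] at hd
      rwa [← mv_comp]

theorem fmem_upair {X : C} (a b c : LN C X) :
    fmem c (upair a b) ↔ Dns (fun _ (k : X ⟶ _) =>
      feq (mv k c) (mv k a) ∨ feq (mv k c) (mv k b)) := by
  have := fmem_mv_upair a b (𝟙 X) c
  simpa only [mv_id] using this

theorem left_mem_upair {X : C} (a b : LN C X) : fmem a (upair a b) :=
  (fmem_upair _ _ _).2 (Dns.of_all fun _ _ => Or.inl (feq_refl _))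

theorem right_mem_upair {X : C} (a b : LN C X) : fmem b (upair a b) :=
  (fmem_upair _ _ _).2 (Dns.of_all fun _ _ => Or.inr (feq_refl _))

theorem mv_upair {X Y : C} (f : X ⟶ Y) (a b : LN C X) :
    feq (mv f (upair a b)) (upair (mv f a) (mv f b)) := by
  refine feq_of_ext fun Z g c => ?_
  rw [fmem_mv_upair, ← mv_comp, fmem_mv_upair]
  simp only [mv_comp]

theorem upair_congr {X : C} {a b a' b' : LN C X} (h1 : feq a a') (h2 : feq b b') :
    feq (upair a b) (upair a' b') := by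
  refine feq_of_ext fun Z g c => ?_
  rw [fmem_mv_upair, fmem_mv_upair]
  have key : ∀ {W : C} (k : Z ⟶ W), (feq (mv k c) (mv k (mv g a)) ∨ feq (mv k c) (mv k (mv g b)))
      ↔ (feq (mv k c) (mv k (mv g a')) ∨ feq (mv k c) (mv k (mv g b'))) := by
    intro W k
    have e1 := feq_mono k (feq_mono g h1)
    have e2 := feq_mono k (feq_mono g h2)
    constructor
    · rintro (h | h)
      · exact Or.inl (feq_trans h e1)
      · exact Or.inr (feq_trans h e2)
    · rintro (h | h)
      · exact Or.inl (feq_trans h (feq_symm e1))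
      · exact Or.inr (feq_trans h (feq_symm e2))
  constructor
  · exact fun h => h.imp fun _ k => (key k).1
  · exact fun h => h.imp fun _ k => (key k).2

/-- the characterization of unordered pairs up to forced equality -/
theorem feq_upair_iff {X : C} {p a b : LN C X} : feq p (upair a b) ↔
    ∀ (Y : C) (f : X ⟶ Y) (c : LN C Y), fmem c (mv f p) ↔
      Dns (fun _ (k : Y ⟶ _) => feq (mv k c) (mv k (mv f a)) ∨ feq (mv k c) (mv k (mv f b))) := by
  constructor
  · intro h Y f c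
    rw [← fmem_mv_upair]
    exact ⟨fmem_congr (feq_refl _) (feq_mono f h), fmem_congr (feq_refl _)
      (feq_symm (feq_mono f h))⟩
  · intro h
    refine feq_of_ext fun Y f c => ?_
    rw [h, fmem_mv_upair]

/-- Singletons. -/
theorem fmem_sing {X : C} {a c : LN C X} : fmem c (upair a a) ↔ feq c a := by
  rw [fmem_upair]
  constructor
  · intro h
    exact feq_of_dns h fun Y f hf => hf.elim id id
  · intro h
    exact Dns.of_all fun Y f => Or.inl (feq_mono f h)

theorem sing_eq_upair {X : C} {a b c : LN C X} (h : feq (upair a a) (upair b c)) :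
    feq a b ∧ feq a c :=
  ⟨feq_symm (fmem_sing.1 (fmem_congr (feq_refl _) (feq_symm h) (left_mem_upair b c))),
    feq_symm (fmem_sing.1 (fmem_congr (feq_refl _) (feq_symm h) (right_mem_upair b c)))⟩

theorem upair_cancel {X : C} {a b a' b' : LN C X} (h : feq (upair a b) (upair a' b'))
    (ha : feq a a') : feq b b' := by
  have h1 : fmem b (upair a' b') := fmem_congr (feq_refl _) h (right_mem_upair _ _)
  have h2 : fmem b' (upair a b) := fmem_congr (feq_refl _) (feq_symm h) (right_mem_upair _ _)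
  rw [fmem_upair] at h1 h2
  refine feq_of_dns h1 fun Y f hf => ?_
  rcases hf with hf | hf
  · refine feq_of_dns (P := fun Z g => feq (mv (f ≫ g) b') (mv (f ≫ g) a) ∨
      feq (mv (f ≫ g) b') (mv (f ≫ g) b)) ?_ fun Z g hg => ?_
    · intro Z g
      obtain ⟨W, k, hk⟩ := h2 Z (f ≫ g)
      exact ⟨W, k, by simpa only [Category.assoc] using hk⟩
    · have e1 := feq_mono g hf
      have e2 := feq_mono g (feq_mono f ha)
      simp only [mv_comp] at hg
      rcases hg with hg | hg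
      · exact feq_trans e1 (feq_trans (feq_symm e2) (feq_symm hg))
      · exact feq_symm hg
  · exact hf

/-! ### Ordered pairs -/

/-- The Kuratowski pair. -/
def op {X : C} (a b : LN C X) : LN C X := upair (upair a a) (upair a b)

theorem op_congr {X : C} {a b a' b' : LN C X} (h1 : feq a a') (h2 : feq b b') :
    feq (op a b) (op a' b') :=
  upair_congr (upair_congr h1 h1) (upair_congr h1 h2)

theorem op_mv {X Y : C} (f : X ⟶ Y) (a b : LN C X) :
    feq (mv f (op a b)) (op (mv f a) (mv f b)) :=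
  feq_trans (mv_upair f _ _) (upair_congr (mv_upair f _ _) (mv_upair f _ _))

theorem op_fst {X : C} {a b a' b' : LN C X} (h : feq (op a b) (op a' b')) : feq a a' := by
  have h1 : fmem (upair a a) (op a' b') := fmem_congr (feq_refl _) h (left_mem_upair _ _)
  unfold op at h1
  rw [fmem_upair] at h1
  refine feq_of_dns h1 fun Y f hf => ?_
  rcases hf with hf | hf
  · exact (sing_eq_upair (feq_trans (feq_symm (mv_upair _ _ _))
      (feq_trans hf (mv_upair _ _ _)))).1
  · exact (sing_eq_upair (feq_trans (feq_symm (mv_upair _ _ _))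
      (feq_trans hf (mv_upair _ _ _)))).1

theorem op_snd {X : C} {a b a' b' : LN C X} (h : feq (op a b) (op a' b')) : feq b b' := by
  have ha := op_fst h
  have h1 : fmem (upair a b) (op a' b') := fmem_congr (feq_refl _) h (right_mem_upair _ _)
  have h2 : fmem (upair a' b') (op a b) := fmem_congr (feq_refl _) (feq_symm h)
    (right_mem_upair _ _)
  unfold op at h1 h2
  rw [fmem_upair] at h1 h2
  refine feq_of_dns h1 fun Y f hf => ?_
  rcases hf with hf | hf
  · have e1 : feq (mv f a') (mv f b) :=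
      (sing_eq_upair (feq_symm (feq_trans (feq_symm (mv_upair _ _ _))
        (feq_trans hf (mv_upair _ _ _))))).2
    refine feq_of_dns (P := fun Z g => feq (mv (f ≫ g) (upair a' b')) (mv (f ≫ g) (upair a a)) ∨
      feq (mv (f ≫ g) (upair a' b')) (mv (f ≫ g) (upair a b))) ?_ fun Z g hg => ?_
    · intro Z g
      obtain ⟨W, k, hk⟩ := h2 Z (f ≫ g)
      exact ⟨W, k, by simpa only [Category.assoc] using hk⟩
    · rcases hg with hg | hg
      · have e2 : feq (mv (f ≫ g) a) (mv (f ≫ g) b') :=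
          (sing_eq_upair (feq_symm (feq_trans (feq_symm (mv_upair _ _ _))
            (feq_trans hg (mv_upair _ _ _))))).2
        have e3 := feq_mono g (feq_mono f ha)
        simp only [mv_comp] at e2
        exact feq_trans (feq_symm (feq_mono g e1)) (feq_trans (feq_symm e3) e2)
      · have e4 : feq (upair (mv (f ≫ g) a') (mv (f ≫ g) b'))
            (upair (mv (f ≫ g) a) (mv (f ≫ g) b)) :=
          feq_trans (feq_symm (mv_upair _ _ _)) (feq_trans hg (mv_upair _ _ _))
        have := upair_cancel e4 (feq_symm (feq_mono _ ha))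
        simp only [mv_comp] at this
        exact feq_symm this
  · have e4 : feq (upair (mv f a) (mv f b)) (upair (mv f a') (mv f b')) :=
      feq_trans (feq_symm (mv_upair _ _ _)) (feq_trans hf (mv_upair _ _ _))
    exact upair_cancel e4 (feq_mono f ha)

theorem op_feq {X : C} {a b a' b' : LN C X} :
    feq (op a b) (op a' b') ↔ feq a a' ∧ feq b b' :=
  ⟨fun h => ⟨op_fst h, op_snd h⟩, fun h => op_congr h.1 h.2⟩

/-! ### Standard names of ordinals -/

/-- The core of the standard name of an ordinal. -/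
noncomputable def ckc : Ordinal.{u} → ∀ X : C, Nm C X
  | o, X => .mk X (Shrink.{u} (Set.Iio o)) (fun _ => X) (fun _ => X) (fun _ => 𝟙 X)
      (fun _ => 𝟙 X) (fun i => ckc ((equivShrink (Set.Iio o)).symm i).1 X)
termination_by o => o
decreasing_by exact ((equivShrink (Set.Iio o)).symm i).2

/-- The standard name of an ordinal. -/
noncomputable def ck (o : Ordinal.{u}) (X : C) : LN C X := ⟨𝟙 X, ckc o X⟩

theorem El_mv_ck {X W : C} (o : Ordinal.{u}) (f : X ⟶ W) (c : LN C W) :
    El c (mv f (ck o X)) ↔ ∃ o' < o, c = mv f (ck o' X) := by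
  unfold ck El mv
  rw [ckc]
  constructor
  · rintro ⟨i, w, hw, hc⟩
    refine ⟨((equivShrink (Set.Iio o)).symm i).1, ((equivShrink (Set.Iio o)).symm i).2, ?_⟩
    have hw' : w = f := (Category.id_comp w).symm.trans (hw.trans (Category.id_comp f))
    rw [hc, hw']
    rfl
  · rintro ⟨o', ho, rfl⟩
    refine ⟨equivShrink (Set.Iio o) ⟨o', ho⟩, f, rfl, ?_⟩
    change (⟨𝟙 X ≫ f, ckc o' X⟩ : LN C W) =
      ⟨𝟙 X ≫ f, ckc ((equivShrink (Set.Iio o)).symm (equivShrink (Set.Iio o) ⟨o', ho⟩)).1 X⟩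
    rw [Equiv.symm_apply_apply]

theorem El_ck {X : C} (o : Ordinal.{u}) (c : LN C X) :
    El c (ck o X) ↔ ∃ o' < o, c = ck o' X := by
  have := El_mv_ck o (𝟙 X) c
  simpa only [mv_id] using this

theorem ck_mv (o : Ordinal.{u}) : ∀ {X Y : C} (k : X ⟶ Y), feq (mv k (ck o X)) (ck o Y) := by
  induction o using WellFoundedLT.induction with
  | ind o ih =>
    intro X Y k
    rw [feq_iff]
    intro Z g
    constructor
    · intro c hc
      rw [← mv_comp, El_mv_ck] at hc
      obtain ⟨o', ho, rfl⟩ := hc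
      have h1 : El (mv g (ck o' Y)) (mv g (ck o Y)) := (El_mv_ck _ _ _).2 ⟨o', ho, rfl⟩
      refine fmem_congr (feq_trans (ih o' ho g) (feq_symm (ih o' ho (k ≫ g)))) (feq_refl _) h1.fmem
    · intro c hc
      rw [El_mv_ck] at hc
      obtain ⟨o', ho, rfl⟩ := hc
      rw [← mv_comp]
      have h1 : El (mv (k ≫ g) (ck o' X)) (mv (k ≫ g) (ck o X)) :=
        (El_mv_ck _ _ _).2 ⟨o', ho, rfl⟩
      refine fmem_congr (feq_trans (ih o' ho (k ≫ g)) (feq_symm (ih o' ho g))) (feq_refl _) h1.fmem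

theorem ck_mem {o o' : Ordinal.{u}} (h : o' < o) (X : C) : fmem (ck o' X) (ck o X) :=
  ((El_ck _ _).2 ⟨o', h, rfl⟩).fmem

/-- forced membership in a standard name -/
theorem fmem_ck {X : C} {o : Ordinal.{u}} {c : LN C X} :
    fmem c (ck o X) ↔ Dns (fun Y (k : X ⟶ Y) => ∃ o' < o, feq (mv k c) (ck o' Y)) := by
  constructor
  · intro h Y f
    obtain ⟨Z, g, d, hd, he⟩ := h Y f
    rw [← mv_comp] at hd he
    rw [El_mv_ck] at hd
    obtain ⟨o', ho, rfl⟩ := hd
    exact ⟨Z, g, o', ho, feq_trans he (ck_mv _ _)⟩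
  · intro h
    refine fmem_of_dns h fun Y f hf => ?_
    obtain ⟨o', ho, he⟩ := hf
    exact fmem_congr (feq_symm he) (feq_symm (ck_mv _ _)) (ck_mem ho Y)

theorem ck_ne {o : Ordinal.{u}} : ∀ {o' : Ordinal.{u}} {X : C}, feq (ck o X) (ck o' X) → o = o' := by
  induction o using WellFoundedLT.induction with
  | ind o ih =>
    intro o' X h
    rcases lt_trichotomy o o' with h1 | h1 | h1
    · have h2 : fmem (ck o X) (ck o X) := fmem_congr (feq_refl _) (feq_symm h) (ck_mem h1 X)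
      rw [fmem_ck] at h2
      obtain ⟨Y, k, o'', ho, he⟩ := h2 X (𝟙 X)
      have := ih o'' ho (feq_trans (feq_symm he) (ck_mv _ _))
      exact absurd this ho.ne
    · exact h1
    · exact absurd (ih o' h1 (feq_symm h)) h1.ne

/-! ### Forced axioms -/

/-- Foundation. -/
theorem foundation {X : C} (c : LN C X) : ∀ a : LN C X, fmem c a →
    ∃ (Y : C) (f : X ⟶ Y) (c' : LN C Y), fmem c' (mv f a) ∧
      ∀ (Z : C) (g : Y ⟶ Z) (d : LN C Z), fmem d (mv g (mv f a)) → ¬ fmem d (mv g c') := by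
  refine ind (P := fun {X} c => ∀ a : LN C X, fmem c a →
    ∃ (Y : C) (f : X ⟶ Y) (c' : LN C Y), fmem c' (mv f a) ∧
      ∀ (Z : C) (g : Y ⟶ Z) (d : LN C Z), fmem d (mv g (mv f a)) → ¬ fmem d (mv g c')) ?_ c
  intro X c ih a hca
  by_cases hc : ∀ (Z : C) (g : X ⟶ Z) (d : LN C Z), fmem d (mv g a) → ¬ fmem d (mv g c)
  · refine ⟨X, 𝟙 X, c, by rwa [mv_id], ?_⟩
    rwa [mv_id]
  · push Not at hc
    obtain ⟨Z, g, d, h1, h2⟩ := hc
    obtain ⟨W, k, e, h3, h4⟩ := mem_El h2
    rw [← mv_comp] at h3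
    obtain ⟨V, l, c', h5, h6⟩ := ih W (g ≫ k) e h3 (mv (g ≫ k) a) (by
      rw [mv_comp]
      exact fmem_congr h4 (feq_refl _) (fmem_mono k h1))
    refine ⟨V, (g ≫ k) ≫ l, c', ?_, ?_⟩
    · rw [mv_comp]; exact h5
    · rw [mv_comp]; exact h6

/-- Pairing. -/
theorem pairing {X : C} (a b : LN C X) : ∃ p : LN C X, fmem a p ∧ fmem b p :=
  ⟨upair a b, left_mem_upair _ _, right_mem_upair _ _⟩

theorem not_fmem_ck_zero {X : C} (c : LN C X) : ¬ fmem c (ck 0 X) := by
  intro h
  rw [fmem_ck] at h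
  obtain ⟨Y, k, o', ho, _⟩ := h X (𝟙 X)
  exact absurd ho (not_lt_bot (α := Ordinal) )

/-- The standard name of a successor ordinal is forced to be the successor. -/
theorem fmem_ck_succ {X : C} {o : Ordinal.{u}} {c : LN C X} :
    fmem c (ck (o + 1) X) ↔
      Dns (fun Y (k : X ⟶ Y) => fmem (mv k c) (mv k (ck o X)) ∨ feq (mv k c) (mv k (ck o X))) := by
  constructor
  · intro h
    rw [fmem_ck] at h
    refine h.imp fun Y k hk => ?_
    obtain ⟨o', ho, he⟩ := hk
    rcases (Order.lt_add_one_iff.1 ho).lt_or_eq with h1 | rfl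
    · exact Or.inl (fmem_congr (feq_symm he) (feq_symm (ck_mv _ _)) (ck_mem h1 Y))
    · exact Or.inr (feq_trans he (feq_symm (ck_mv _ _)))
  · intro h
    refine fmem_of_dns h fun Y k hk => ?_
    have h0 : fmem (ck o Y) (ck (o + 1) Y) := ck_mem (Order.lt_add_one_iff.2 le_rfl) Y
    rcases hk with hk | hk
    · have h1 : fmem (mv k c) (ck o Y) := fmem_congr (feq_refl _) (ck_mv _ _) hk
      rw [fmem_ck] at h1
      refine fmem_of_dns h1 fun Z g hg => ?_
      obtain ⟨o', ho, he⟩ := hg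
      refine fmem_congr (feq_symm he) (feq_symm (feq_trans (feq_mono g (ck_mv _ _)) (ck_mv _ _)))
        (ck_mem (ho.trans (Order.lt_add_one_iff.2 le_rfl)) Z)
    · exact fmem_congr (feq_symm (feq_trans hk (ck_mv _ _))) (feq_symm (ck_mv _ _)) h0

/-- Infinity. -/
theorem infinity (X : C) : ∃ w : LN C X,
    (∃ e : LN C X, fmem e w ∧ ∀ (Y : C) (f : X ⟶ Y) (z : LN C Y), ¬ fmem z (mv f e)) ∧
    ∀ (Y : C) (f : X ⟶ Y) (x : LN C Y), fmem x (mv f w) →
      Dns (fun Z (g : Y ⟶ Z) => ∃ s : LN C Z, fmem s (mv g (mv f w)) ∧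
        ∀ (W : C) (h : Z ⟶ W) (z : LN C W), fmem z (mv h s) ↔
          Dns (fun V (k : W ⟶ V) => fmem (mv k z) (mv k (mv h (mv g x))) ∨
            feq (mv k z) (mv k (mv h (mv g x))))) := by
  refine ⟨ck Ordinal.omega0 X, ⟨ck 0 X, ck_mem Ordinal.omega0_pos X, ?_⟩, ?_⟩
  · intro Y f z h
    exact not_fmem_ck_zero z (fmem_congr (feq_refl _) (ck_mv _ _) h)
  · intro Y f x hx
    have hx' : fmem x (ck Ordinal.omega0 Y) := fmem_congr (feq_refl _) (ck_mv _ _) hx
    rw [fmem_ck] at hx'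
    refine hx'.imp fun Z g hg => ?_
    obtain ⟨o, ho, he⟩ := hg
    refine ⟨ck (o + 1) Z, ?_, ?_⟩
    · refine fmem_congr (feq_refl _) (feq_symm (feq_trans (feq_mono g (ck_mv _ _)) (ck_mv _ _)))
        (ck_mem ?_ Z)
      exact Ordinal.isSuccLimit_omega0.add_one_lt ho
    · intro W h z
      have e0 : feq (mv h (ck (o + 1) Z)) (ck (o + 1) W) := ck_mv _ _
      have e1 : feq (mv h (mv g x)) (ck o W) := feq_trans (feq_mono h he) (ck_mv _ _)
      constructor
      · intro hz
        have := fmem_congr (feq_refl _) e0 hz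
        rw [fmem_ck_succ] at this
        refine this.imp fun V k hk => ?_
        rcases hk with hk | hk
        · exact Or.inl (fmem_congr (feq_refl _) (feq_symm (feq_mono k e1)) hk)
        · exact Or.inr (feq_trans hk (feq_symm (feq_mono k e1)))
      · intro hz
        refine fmem_congr (feq_refl _) (feq_symm e0) ?_
        rw [fmem_ck_succ]
        refine hz.imp fun V k hk => ?_
        rcases hk with hk | hk
        · exact Or.inl (fmem_congr (feq_refl _) (feq_mono k e1) hk)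
        · exact Or.inr (feq_trans hk (feq_mono k e1))

end LN

end

end Vale.Agent.P323.F
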